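import Vale.Agent.P004G.H253.Tw8
import Vale.Agent.P004.H3.DecII
import Vale.Agent.P004.B
import Vale.Agent.P004.C
import Vale.Agent.P004.C0
import Vale.Agent.P004.D
import Vale.Agent.P004.E
import Vale.Agent.P004.H3.PoisG

/-!
# P004G, module D: the bilinear bound, all coefficient-free inputs inserted
-/

namespace P004G

variable [Crv]

theorem Tw.twL2 (hSep2 : StSep2) (hConv : StConv) (hFrac : StFrac) (hWts : Tw.StWts)
    (hJs : Tw.StJs) : Tw.StTwL2 :=
  Tw.pfTwL2 pfCoef (P004.pfPoisG P004.pfTw) P004.pfKer hSep2 hConv hFrac P004.pfDiv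
    P004.Tw.pfDecII hWts hJs

theorem Tw.twL (hSep2 : StSep2) (hConv : StConv) (hFrac : StFrac) (hWts : Tw.StWts)
    (hJs : Tw.StJs) : Tw.StTwL :=
  Tw.pfTwL (Tw.twL2 hSep2 hConv hFrac hWts hJs)

end P004G
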