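import Vale.Agent.P004G.Iface
import Vale.Agent.P004.H3
import Vale.Agent.P004.H2

/-!
# P004G, module D (twisted bilinear estimate): basic lemmas on `ca`, `lam`, `Tf`
-/

open Real MeasureTheory Set Filter
open scoped ENNReal Topology

namespace P004G

variable [Crv]

namespace Tw

lemma abs_ca_le (hC : StCoef) (n : ℕ) : |(ca n : ℝ)| ≤ (n : ℝ) ^ 2 := by
  refine (hC.bound n).trans ?_
  rcases Nat.eq_zero_or_pos n with rfl | hn
  · simp
  have hn' : (1 : ℝ) ≤ n := by exact_mod_cast hn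
  have h1 : dv n ≤ n := P004.H2.dv_le n
  have h2 : √(n : ℝ) ≤ n := by
    rw [Real.sqrt_le_left (by linarith)]
    nlinarith
  have h0 : 0 ≤ dv n := P004.H3.dv_nonneg n
  calc dv n * √(n : ℝ) ≤ n * n := by gcongr
    _ = (n : ℝ) ^ 2 := by ring

lemma lam_le (hC : StCoef) (n : ℕ) : |lam n| ≤ dv n := by
  unfold lam
  rcases Nat.eq_zero_or_pos n with rfl | hn
  · simp [P004.H3.dv_nonneg]
  have hs : 0 < √(n : ℝ) := Real.sqrt_pos.2 (by exact_mod_cast hn)
  rw [abs_div, abs_of_pos hs, div_le_iff₀ hs]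
  exact hC.bound n

/-- the general term of `Tf` -/
noncomputable def tt (θ : ℝ) (R : ℕ) (m : ℤ) (n : ℕ) (p : ℝ × ℝ) : ℂ :=
  if Squarefree n ∧ n.Coprime R then
    (((ca n : ℝ) * chi m n * Real.exp (-π * n * p.2) : ℝ) : ℂ) *
      (n : ℂ) ^ (-(θ : ℂ) + p.1 * Complex.I) else 0

lemma norm_tt_le {θ : ℝ} (hθ : 0 < θ) (R : ℕ) (m : ℤ) (n : ℕ) (p : ℝ × ℝ) :
    ‖tt θ R m n p‖ ≤ (n : ℝ) ^ 2 * Real.exp (-(π * p.2) * n) := by
  unfold tt
  split_ifs with h
  · have hn : 1 ≤ n := Nat.one_le_iff_ne_zero.2 h.1.ne_zero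
    have hn' : (1 : ℝ) ≤ n := by exact_mod_cast hn
    rw [norm_mul, Complex.norm_natCast_cpow_of_pos (by omega), Complex.norm_real, norm_mul,
      norm_mul, Real.norm_eq_abs, Real.norm_eq_abs, Real.norm_eq_abs, Real.abs_exp]
    have e1 : (n : ℝ) ^ (-(θ : ℂ) + p.1 * Complex.I).re ≤ 1 := by
      apply Real.rpow_le_one_of_one_le_of_nonpos hn'
      simp; linarith
    have e2 : |(ca n : ℝ)| ≤ (n : ℝ) ^ 2 := abs_ca_le pfCoef n
    have e3 : 0 ≤ (n : ℝ) ^ (-(θ : ℂ) + p.1 * Complex.I).re := by positivity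
    calc |(ca n : ℝ)| * |chi m n| * rexp (-π * n * p.2) *
          (n : ℝ) ^ (-(θ : ℂ) + p.1 * Complex.I).re
        ≤ ((n : ℝ) ^ 2) * 1 * rexp (-π * n * p.2) * 1 := by
          gcongr
          exact P004.H3.abs_chi_le m n
      _ = (n : ℝ) ^ 2 * Real.exp (-(π * p.2) * n) := by
          rw [show -π * n * p.2 = -(π * p.2) * n by ring]; ring
  · simp only [norm_zero]; positivity

lemma summable_tt {θ : ℝ} (hθ : 0 < θ) (R : ℕ) (m : ℤ) {p : ℝ × ℝ} (hp : 0 < p.2) :
    Summable fun n => tt θ R m n p := by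
  refine Summable.of_norm_bounded
    (g := fun n : ℕ => (n : ℝ) ^ 2 * Real.exp (-(π * p.2) * n)) ?_
    (fun n => norm_tt_le hθ R m n p)
  exact Real.summable_pow_mul_exp_neg_nat_mul 2 (by positivity)

lemma measurable_tt (θ : ℝ) (R : ℕ) (m : ℤ) (n : ℕ) : Measurable (tt θ R m n) := by
  by_cases h : Squarefree n ∧ n.Coprime R
  · have : tt θ R m n = fun p : ℝ × ℝ =>
        (((ca n : ℝ) * chi m n * Real.exp (-π * n * p.2) : ℝ) : ℂ) *
        (n : ℂ) ^ (-(θ : ℂ) + p.1 * Complex.I) := by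
      funext p; unfold tt; rw [if_pos h]
    rw [this]
    fun_prop
  · have : tt θ R m n = fun p : ℝ × ℝ => 0 := by
      funext p; unfold tt; rw [if_neg h]
    rw [this]
    fun_prop

/-- `Tf` as a function of `(v, u)`, cut to `u > 0` -/
noncomputable def TG (θ : ℝ) (R : ℕ) (m : ℤ) (p : ℝ × ℝ) : ℂ :=
  if 0 < p.2 then Tf θ p.1 R m p.2 else 0

lemma measurable_TG {θ : ℝ} (hθ : 0 < θ) (R : ℕ) (m : ℤ) : Measurable (TG θ R m) := by
  refine measurable_of_tendsto_metrizable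
    (f := fun (N : ℕ) (p : ℝ × ℝ) => if 0 < p.2 then ∑ n ∈ Finset.range N, tt θ R m n p else 0) ?_ ?_
  · intro N
    refine Measurable.ite (measurableSet_lt measurable_const measurable_snd) ?_ measurable_const
    exact Finset.measurable_sum _ fun n _ => measurable_tt θ R m n
  · rw [tendsto_pi_nhds]
    intro p
    unfold TG
    by_cases hp : 0 < p.2
    · simp only [hp, if_true]
      exact (summable_tt hθ R m hp).hasSum.tendsto_sum_nat
    · simp only [hp, if_false]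
      exact tendsto_const_nhds

lemma TG_eq {θ v u : ℝ} (hu : 0 < u) (R : ℕ) (m : ℤ) : TG θ R m (v, u) = Tf θ v R m u := by
  simp [TG, hu]

/-- absorbing the square -/
lemma Tf_sq (θ v : ℝ) (R j₁ j₂ : ℕ) (ε : ℤ) (u : ℝ) :
    Tf θ v R (ε * ((j₁ * j₂ ^ 2 : ℕ) : ℤ)) u = Tf θ v (R * j₂) (ε * j₁) u := by
  unfold Tf
  refine tsum_congr fun n => ?_
  by_cases h : Squarefree n ∧ n.Coprime R
  · rw [if_pos h]
    by_cases h2 : n.Coprime j₂
    · rw [if_pos ⟨h.1, Nat.Coprime.mul_right h.2 h2⟩]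
      have : chi (ε * ((j₁ * j₂ ^ 2 : ℕ) : ℤ)) n = chi (ε * j₁) n := by
        unfold chi
        push_cast
        rw [← mul_assoc, jacobiSym.mul_left, jacobiSym.pow_left, jacobiSym.sq_one, mul_one]
        rw [Int.gcd_natCast_natCast]
        exact h2.symm
      rw [this]
    · rw [if_neg (fun hh => h2 (Nat.Coprime.coprime_mul_left_right hh.2))]
      have : chi (ε * ((j₁ * j₂ ^ 2 : ℕ) : ℤ)) n = 0 := by
        unfold chi
        push_cast
        rw [← mul_assoc, jacobiSym.mul_left, jacobiSym.pow_left]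
        have : NeZero n := ⟨h.1.ne_zero⟩
        have h3 : jacobiSym j₂ n = 0 := by
          rw [jacobiSym.eq_zero_iff_not_coprime, Int.gcd_natCast_natCast]
          exact fun hh => h2 (Nat.Coprime.symm hh)
        rw [h3]; simp
      rw [this]; simp
  · rw [if_neg h, if_neg (fun hh => h ⟨hh.1, Nat.Coprime.coprime_mul_right_right hh.2⟩)]

/-- the bound of the fractional integral by both signs together -/
lemma Jz_le (ε : ℤ) (hε : ε.natAbs = 1) (j : ℕ) : Jz (ε * j) ≤ Jm j := by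
  unfold Jm
  rcases Int.natAbs_eq ε with h | h
  · rw [hε] at h
    rw [h]
    simp
  · rw [hε] at h
    rw [h]
    simp

end Tw

end P004G
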