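import Vale.Agent.P004.C3

/-!
# P004G: the finite Fourier transform of the quadratic character of `x² - x y + y²`
-/

open Real MeasureTheory Set
open scoped ENNReal

namespace P004G
namespace SX

open P004 (qc gs qc_apply qc_zero qc_neg_one_sq gs_sq gs_ne_zero sum_qc_mul sum_sq_lin dft1 dft2
  crtMap crtMap_fst crtMap_snd dft2_crt jac_congr)

section prime

variable {p : ℕ} [Fact p.Prime]

lemma qc_sq {a : ZMod p} (ha : a ≠ 0) : qc p (a ^ 2) = 1 := by
  rw [qc_apply, quadraticChar_sq_one' ha]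
  simp

lemma qc_mul_self {a : ZMod p} (ha : a ≠ 0) : qc p a * qc p a = 1 := by
  rw [← map_mul, ← sq, qc_sq ha]

/-- the two-dimensional character sum modulo a prime -/
theorem sum_three_prime (hp : p ≠ 2) (hp3 : p ≠ 3) (k l : ZMod p) :
    ∑ x : ZMod p, ∑ y : ZMod p, qc p (x ^ 2 - x * y + y ^ 2) *
      (ZMod.stdAddChar (x * k) * ZMod.stdAddChar (y * l)) = p * qc p (k ^ 2 + k * l + l ^ 2) := by
  have h2 : (2 : ZMod p) ≠ 0 := by
    intro h
    have : ((2 : ℕ) : ZMod p) = 0 := by exact_mod_cast h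
    rw [ZMod.natCast_eq_zero_iff] at this
    exact hp ((Nat.prime_dvd_prime_iff_eq Fact.out Nat.prime_two).1 this)
  have h3 : (3 : ZMod p) ≠ 0 := by
    intro h
    have : ((3 : ℕ) : ZMod p) = 0 := by exact_mod_cast h
    rw [ZMod.natCast_eq_zero_iff] at this
    exact hp3 ((Nat.prime_dvd_prime_iff_eq Fact.out Nat.prime_three).1 this)
  have h4 : (4 : ZMod p) ≠ 0 := by
    have : (4 : ZMod p) = 2 * 2 := by norm_num
    rw [this]
    exact mul_ne_zero h2 h2
  have hg := gs_ne_zero hp
  have key : (∑ x : ZMod p, ∑ y : ZMod p, qc p (x ^ 2 - x * y + y ^ 2) *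
      (ZMod.stdAddChar (x * k) * ZMod.stdAddChar (y * l))) * gs p =
      (p * qc p (k ^ 2 + k * l + l ^ 2)) * gs p := by
    calc (∑ x : ZMod p, ∑ y : ZMod p, qc p (x ^ 2 - x * y + y ^ 2) *
      (ZMod.stdAddChar (x * k) * ZMod.stdAddChar (y * l))) * gs p
        = (∑ y : ZMod p, ∑ x : ZMod p, qc p (x ^ 2 - x * y + y ^ 2) *
      (ZMod.stdAddChar (x * k) * ZMod.stdAddChar (y * l))) * gs p := by rw [Finset.sum_comm]
      _ = (∑ y : ZMod p, ∑ x : ZMod p, qc p (x ^ 2 + 3 / 4 * y ^ 2) *
      (ZMod.stdAddChar (x * k) * ZMod.stdAddChar (y * (l + k / 2)))) * gs p := by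
          congr 1
          refine Finset.sum_congr rfl fun y _ => ?_
          refine Fintype.sum_equiv (Equiv.subRight (y / 2)) _ _ fun x => ?_
          simp only [Equiv.subRight_apply]
          have e1 : x ^ 2 - x * y + y ^ 2 = (x - y / 2) ^ 2 + 3 / 4 * y ^ 2 := by
            field_simp
            ring
          rw [e1, ← AddChar.map_add_eq_mul, ← AddChar.map_add_eq_mul]
          congr 2
          field_simp
          ring
      _ = ∑ y : ZMod p, ∑ x : ZMod p, ∑ t : ZMod p, qc p t *
          ((ZMod.stdAddChar (t * x ^ 2) * ZMod.stdAddChar (x * k)) *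
            (ZMod.stdAddChar (t * (3 / 4) * y ^ 2) * ZMod.stdAddChar (y * (l + k / 2)))) := by
          rw [Finset.sum_mul]
          refine Finset.sum_congr rfl fun y _ => ?_
          rw [Finset.sum_mul]
          refine Finset.sum_congr rfl fun x _ => ?_
          rw [mul_right_comm, ← sum_qc_mul hp, Finset.sum_mul]
          refine Finset.sum_congr rfl fun t _ => ?_
          rw [mul_add, AddChar.map_add_eq_mul, ← mul_assoc t]
          ring
      _ = ∑ t : ZMod p, qc p t *
          ((∑ x : ZMod p, (ZMod.stdAddChar (t * x ^ 2) * ZMod.stdAddChar (x * k) : ℂ)) *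
            (∑ y : ZMod p, (ZMod.stdAddChar (t * (3 / 4) * y ^ 2) *
              ZMod.stdAddChar (y * (l + k / 2)) : ℂ))) := by
          rw [Finset.sum_comm]
          simp_rw [Finset.sum_mul_sum, Finset.mul_sum]
          calc _ = ∑ x : ZMod p, ∑ t : ZMod p, ∑ y : ZMod p, qc p t *
              ((ZMod.stdAddChar (t * x ^ 2) * ZMod.stdAddChar (x * k)) *
              (ZMod.stdAddChar (t * (3 / 4) * y ^ 2) * ZMod.stdAddChar (y * (l + k / 2)))) :=
                Finset.sum_congr rfl fun x _ => Finset.sum_comm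
            _ = _ := Finset.sum_comm
      _ = ∑ t : ZMod p, (qc p (-1) * gs p ^ 2) * (qc p (-(3 * t)⁻¹) *
            ZMod.stdAddChar (-(3 * t)⁻¹ * (k ^ 2 + k * l + l ^ 2))) := by
          refine Finset.sum_congr rfl fun t _ => ?_
          by_cases ht : t = 0
          · subst ht
            simp [qc_zero]
          · have ht3 : t * (3 / 4) ≠ 0 := mul_ne_zero ht (div_ne_zero h3 h4)
            rw [sum_sq_lin hp ht, sum_sq_lin hp ht3]
            have e0 : -(3 * t)⁻¹ * (k ^ 2 + k * l + l ^ 2) =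
                -(4 * t)⁻¹ * k ^ 2 + -(4 * (t * (3 / 4)))⁻¹ * (l + k / 2) ^ 2 := by
              field_simp
              ring
            rw [e0, AddChar.map_add_eq_mul]
            have e1 : qc p t * qc p t = 1 := qc_mul_self ht
            have e2 : qc p (t * (3 / 4)) = qc p t * qc p 3 := by
              have e3 : t * (3 / 4) = t * 3 * (2⁻¹) ^ 2 := by
                field_simp
                norm_num
              rw [e3, map_mul, map_mul, qc_sq (inv_ne_zero h2), mul_one]
            have e4 : qc p (-(3 * t)⁻¹) = qc p (-1) * qc p 3 * qc p t := by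
              have e3 : -(3 * t)⁻¹ = (-1) * 3 * t * ((3 * t)⁻¹) ^ 2 := by
                field_simp
              rw [e3, map_mul, map_mul, map_mul, qc_sq (inv_ne_zero (mul_ne_zero h3 ht)), mul_one]
            rw [e2, e4]
            have e5 := qc_neg_one_sq (p := p)
            calc qc p t * (ZMod.stdAddChar (-(4 * t)⁻¹ * k ^ 2) * (qc p t * gs p) *
                (ZMod.stdAddChar (-(4 * (t * (3 / 4)))⁻¹ * (l + k / 2) ^ 2) *
                  (qc p t * qc p 3 * gs p)))
                = (qc p t * qc p t) * (gs p ^ 2 * (qc p t * qc p 3 *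
                  (ZMod.stdAddChar (-(4 * t)⁻¹ * k ^ 2) *
                ZMod.stdAddChar (-(4 * (t * (3 / 4)))⁻¹ * (l + k / 2) ^ 2)))) := by ring
              _ = (qc p (-1) * qc p (-1)) * (gs p ^ 2 * (qc p t * qc p 3 *
                  (ZMod.stdAddChar (-(4 * t)⁻¹ * k ^ 2) *
                ZMod.stdAddChar (-(4 * (t * (3 / 4)))⁻¹ * (l + k / 2) ^ 2)))) := by rw [e1, e5]
              _ = _ := by ring
      _ = (qc p (-1) * gs p ^ 2) * ∑ s : ZMod p, qc p s *
            ZMod.stdAddChar (s * (k ^ 2 + k * l + l ^ 2)) := by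
          rw [← Finset.mul_sum]
          congr 1
          refine Fintype.sum_bijective (fun t : ZMod p => -(3 * t)⁻¹) ?_ _ _ fun t => rfl
          apply Function.Involutive.bijective
          intro t
          by_cases ht : t = 0
          · simp [ht]
          · field_simp
      _ = _ := by
          rw [sum_qc_mul hp, gs_sq hp]
          calc qc p (-1) * (qc p (-1) * p) * (qc p (k ^ 2 + k * l + l ^ 2) * gs p)
              = (qc p (-1) * qc p (-1)) * (p * qc p (k ^ 2 + k * l + l ^ 2) * gs p) := by ring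
            _ = _ := by rw [qc_neg_one_sq, one_mul]
  exact mul_right_cancel₀ hg key

end prime

/-! ### the quadratic form modulo a squarefree number prime to `6` -/

/-- `((x² - x y + y²) / n)` -/
noncomputable def eta3 (n : ℕ) (x y : ZMod n) : ℂ :=
  (jacobiSym ((x.val : ℤ) ^ 2 - x.val * y.val + (y.val : ℤ) ^ 2) n : ℂ)

theorem eta3_int {n : ℕ} [NeZero n] (x y : ℤ) :
    eta3 n (x : ZMod n) (y : ZMod n) = (jacobiSym (x ^ 2 - x * y + y ^ 2) n : ℂ) := by
  unfold eta3
  congr 1
  apply jac_congr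
  push_cast
  simp

theorem eta3_eq {n : ℕ} [NeZero n] (x y : ZMod n) (a b : ℤ) (hx : (a : ZMod n) = x)
    (hy : (b : ZMod n) = y) : eta3 n x y = (jacobiSym (a ^ 2 - a * b + b ^ 2) n : ℂ) := by
  subst hx hy
  exact eta3_int a b

/-- scaling by a unit -/
theorem eta3_smul {n : ℕ} [NeZero n] (c : ℕ) (hc : Nat.Coprime c n) (x y : ZMod n) :
    eta3 n (c * x) (c * y) = eta3 n x y := by
  rw [eta3_eq ((c : ZMod n) * x) ((c : ZMod n) * y) ((c : ℤ) * x.val) ((c : ℤ) * y.val)
    (by push_cast; simp) (by push_cast; simp)]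
  unfold eta3
  congr 1
  have h1 : ((c : ℤ) * x.val) ^ 2 - (c : ℤ) * x.val * (c * y.val) + (c * y.val) ^ 2 =
      (c : ℤ) ^ 2 * ((x.val : ℤ) ^ 2 - x.val * y.val + y.val ^ 2) := by
    ring
  rw [h1, jacobiSym.mul_left, jacobiSym.sq_one', one_mul]
  rw [Int.gcd_natCast_natCast]
  exact hc

theorem eta3_crt {A B : ℕ} [NeZero A] [NeZero B] (h : Nat.Coprime A B) (x y : ZMod A × ZMod B) :
    eta3 (A * B) (crtMap A B x) (crtMap A B y) = eta3 A x.1 y.1 * eta3 B x.2 y.2 := by
  have h1 : eta3 (A * B) (crtMap A B x) (crtMap A B y) =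
      (jacobiSym (((crtMap A B x).val : ℤ) ^ 2 - (crtMap A B x).val * (crtMap A B y).val +
        ((crtMap A B y).val : ℤ) ^ 2) A : ℂ) *
      (jacobiSym (((crtMap A B x).val : ℤ) ^ 2 - (crtMap A B x).val * (crtMap A B y).val +
        ((crtMap A B y).val : ℤ) ^ 2) B : ℂ) := by
    unfold eta3
    rw [jacobiSym.mul_right]
    push_cast
    ring
  rw [h1]
  congr 1
  · rw [← eta3_smul B h.symm x.1 y.1]
    refine (eta3_eq _ _ _ _ ?_ ?_).symm
    · rw [← crtMap_fst A B x]
      simp
    · rw [← crtMap_fst A B y]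
      simp
  · rw [← eta3_smul A h x.2 y.2]
    refine (eta3_eq _ _ _ _ ?_ ?_).symm
    · rw [← crtMap_snd A B x]
      simp
    · rw [← crtMap_snd A B y]
      simp

theorem dft2_eta3_prime (p : ℕ) [Fact p.Prime] (hp : p ≠ 2) (hp3 : p ≠ 3) (k l : ℤ) :
    dft2 p (eta3 p) k l = p * (jacobiSym (k ^ 2 + k * l + l ^ 2) p : ℂ) := by
  have h1 := sum_three_prime hp hp3 (k : ZMod p) (l : ZMod p)
  have h2 : ∀ x y : ZMod p, eta3 p x y = qc p (x ^ 2 - x * y + y ^ 2) := by
    intro x y
    unfold eta3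
    rw [← jacobiSym.legendreSym.to_jacobiSym, legendreSym, qc_apply]
    congr 2
    push_cast
    simp
  have h3 : qc p ((k : ZMod p) ^ 2 + (k : ZMod p) * (l : ZMod p) + (l : ZMod p) ^ 2) =
      (jacobiSym (k ^ 2 + k * l + l ^ 2) p : ℂ) := by
    rw [← jacobiSym.legendreSym.to_jacobiSym, legendreSym, qc_apply]
    push_cast
    rfl
  rw [← h3, ← h1]
  unfold dft2 dft1
  refine Finset.sum_congr rfl fun x _ => ?_
  rw [Finset.sum_mul]
  refine Finset.sum_congr rfl fun y _ => ?_
  rw [h2]
  ring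

theorem dft2_eta3 (n : ℕ) [NeZero n] (h6 : n.Coprime 6) (hsq : Squarefree n) (k l : ℤ) :
    dft2 n (eta3 n) k l = n * (jacobiSym (k ^ 2 + k * l + l ^ 2) n : ℂ) := by
  suffices H : ∀ n : ℕ, ∀ (_ : NeZero n), n.Coprime 6 → Squarefree n → ∀ k l : ℤ,
      dft2 n (eta3 n) k l = n * (jacobiSym (k ^ 2 + k * l + l ^ 2) n : ℂ) from
        H n _ h6 hsq k l
  intro n
  induction n using Nat.recOnPosPrimePosCoprime with
  | zero => intro h; exact absurd rfl h.out
  | one =>
    intro _ _ _ k l
    unfold dft2 dft1 eta3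
    simp only [jacobiSym.one_right]
    have : (Finset.univ : Finset (ZMod 1)) = {0} := by
      ext x
      simp only [Finset.mem_univ, Finset.mem_singleton, true_iff]
      exact Subsingleton.elim x 0
    rw [this]
    simp
  | prime_pow p e hp he =>
    intro hne h6 hsq k l
    have he1 : e = 1 := by
      by_contra hne1
      have h2 : 2 ≤ e := by omega
      have h3 : p * p ∣ p ^ e := by
        rw [← sq]
        exact pow_dvd_pow p h2
      have := hsq p h3
      exact hp.one_lt.ne' (Nat.isUnit_iff.1 this)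
    subst he1
    have : Fact p.Prime := ⟨hp⟩
    have hp2 : p ≠ 2 := by
      rintro rfl
      exact absurd h6 (by decide)
    have hp3 : p ≠ 3 := by
      rintro rfl
      exact absurd h6 (by decide)
    have h4 := dft2_eta3_prime p hp2 hp3 k l
    have h5 : p ^ 1 = p := pow_one p
    -- transport along `p ^ 1 = p`
    revert hne
    rw [h5]
    intro hne
    convert h4
  | coprime a b ha hb hab iha ihb =>
    intro hne h6 hsq k l
    have : NeZero a := ⟨by omega⟩
    have : NeZero b := ⟨by omega⟩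
    have hoa : a.Coprime 6 := (Nat.coprime_mul_iff_left.1 h6).1
    have hob : b.Coprime 6 := (Nat.coprime_mul_iff_left.1 h6).2
    have hsa : Squarefree a := hsq.of_mul_left
    have hsb : Squarefree b := hsq.of_mul_right
    have h1 := dft2_crt a b hab (eta3 (a * b)) (eta3 a) (eta3 b) (eta3_crt hab) k l
    have h2 : dft2 (a * b) (eta3 (a * b)) k l =
        (a * b : ℕ) * (jacobiSym (k ^ 2 + k * l + l ^ 2) (a * b) : ℂ) := by
      rw [h1, iha _ hoa hsa, ihb _ hob hsb, jacobiSym.mul_right]
      push_cast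
      ring
    convert h2

end SX
end P004G
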