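import Vale.Agent.P004.H253.Tw2
import Vale.Agent.P004.H3.PoisG

/-!
# P004G, module D (twisted bilinear estimate), part 1: Poisson summation for odd squarefree `q`
-/

open Real MeasureTheory Set Filter Topology
open scoped ENNReal NumberTheorySymbols ArithmeticFunction.Moebius

namespace P004G

namespace Tw

open P004 P004.Tw

/-- Poisson summation with the weight `ah`, for `n = g² q`. -/
lemma pair_gen (hP : StPoisG) {g q : ℕ} (hg0 : g ≠ 0) (hq : Squarefree q)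
    (hqp : Odd q) {H : ℝ} (hH : 0 < H) :
    ∑' h : ℤ, H1.ah H h * chi h (g * g * q) =
      H * ∑ d ∈ g.divisors, (μ d : ℝ) / (d * √(q : ℝ)) *
        ∑' j : ℤ, if (d : ℤ) ∣ j then chi j q * Gk (|(j : ℝ)| * H / ((d : ℝ) ^ 2 * q)) else 0 := by
  rw [← H1.integral_eq_tsum hH]
  have hq0 : q ≠ 0 := hq.ne_zero
  have hqpos : (0 : ℝ) < q := by exact_mod_cast Nat.pos_of_ne_zero hq0
  set F : ℤ → ℝ → ℝ := fun j x => ∑ d ∈ g.divisors, H * ((μ d : ℝ) / (d * √(q : ℝ))) *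
    (if (d : ℤ) ∣ j then chi j q * (x ^ 7 * rexp (-x) *
      rexp (-π * (|(j : ℝ)| * H / ((d : ℝ) ^ 2 * q)) ^ 2 / x ^ 16)) else 0) with hF
  have hint1 : ∀ (j : ℤ) (d : ℕ), IntegrableOn (fun x => H * ((μ d : ℝ) / (d * √(q : ℝ))) *
    (if (d : ℤ) ∣ j then chi j q * (x ^ 7 * rexp (-x) *
      rexp (-π * (|(j : ℝ)| * H / ((d : ℝ) ^ 2 * q)) ^ 2 / x ^ 16)) else 0)) (Ioi 0) := fun j d => by
    refine Integrable.const_mul ?_ _
    split_ifs
    · exact (gk_int _).const_mul _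
    · exact integrable_zero _ _ _
  have hval1 : ∀ (j : ℤ) (d : ℕ), ∫ x in Ioi (0 : ℝ), H * ((μ d : ℝ) / (d * √(q : ℝ))) *
    (if (d : ℤ) ∣ j then chi j q * (x ^ 7 * rexp (-x) *
      rexp (-π * (|(j : ℝ)| * H / ((d : ℝ) ^ 2 * q)) ^ 2 / x ^ 16)) else 0) =
      H * ((μ d : ℝ) / (d * √(q : ℝ))) *
      (if (d : ℤ) ∣ j then chi j q * Gk (|(j : ℝ)| * H / ((d : ℝ) ^ 2 * q)) else 0) := fun j d => by
    rw [integral_const_mul]
    congr 1
    split_ifs
    · rw [integral_const_mul]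
      rfl
    · simp
  have hint : ∀ j, IntegrableOn (F j) (Ioi 0) := fun j =>
    integrable_finsetSum _ fun d _ => hint1 j d
  have hval : ∀ j, ∫ x in Ioi (0 : ℝ), F j x = ∑ d ∈ g.divisors, H * ((μ d : ℝ) / (d * √(q : ℝ))) *
      (if (d : ℤ) ∣ j then chi j q * Gk (|(j : ℝ)| * H / ((d : ℝ) ^ 2 * q)) else 0) := fun j => by
    rw [hF, integral_finsetSum _ fun d _ => hint1 j d]
    exact Finset.sum_congr rfl fun d _ => hval1 j d
  have hsumd : ∀ d ∈ g.divisors, Summable fun j : ℤ => |H * ((μ d : ℝ) / (d * √(q : ℝ)))| *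
      Gk (|(j : ℝ)| * H / ((d : ℝ) ^ 2 * q)) := fun d hd => by
    have hdpos : (0 : ℝ) < d := by exact_mod_cast Nat.pos_of_mem_divisors hd
    refine ((summable_Gk (c := H / ((d : ℝ) ^ 2 * q)) (by positivity)).mul_left
      |H * ((μ d : ℝ) / (d * √(q : ℝ)))|).congr fun j => ?_
    rw [mul_div_assoc]
  have hnorm : Summable fun j => ∫ x in Ioi (0 : ℝ), ‖F j x‖ := by
    refine Summable.of_norm_bounded (summable_sum hsumd) fun j => ?_
    rw [Real.norm_of_nonneg (integral_nonneg fun _ => norm_nonneg _)]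
    have hG : ∀ d ∈ g.divisors, IntegrableOn (fun x : ℝ => |H * ((μ d : ℝ) / (d * √(q : ℝ)))| *
        (x ^ 7 * rexp (-x) * rexp (-π * (|(j : ℝ)| * H / ((d : ℝ) ^ 2 * q)) ^ 2 / x ^ 16)))
        (Ioi 0) := fun d _ => (gk_int _).const_mul _
    calc ∫ x in Ioi (0 : ℝ), ‖F j x‖ ≤ ∫ x in Ioi (0 : ℝ), ∑ d ∈ g.divisors,
          |H * ((μ d : ℝ) / (d * √(q : ℝ)))| * (x ^ 7 * rexp (-x) *
            rexp (-π * (|(j : ℝ)| * H / ((d : ℝ) ^ 2 * q)) ^ 2 / x ^ 16)) := by
          refine setIntegral_mono_on (hint j).norm (integrable_finsetSum _ hG)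
            measurableSet_Ioi fun x hx => ?_
          have hx' : (0 : ℝ) < x := hx
          refine (norm_sum_le _ _).trans (Finset.sum_le_sum fun d _ => ?_)
          rw [norm_mul, Real.norm_eq_abs]
          refine mul_le_mul_of_nonneg_left ?_ (abs_nonneg _)
          split_ifs
          · rw [norm_mul, Real.norm_eq_abs, Real.norm_of_nonneg (by positivity)]
            exact mul_le_of_le_one_left (by positivity) (chi_bound _ _)
          · rw [norm_zero]
            positivity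
      _ = _ := by
          rw [integral_finsetSum _ hG]
          exact Finset.sum_congr rfl fun d _ => by rw [integral_const_mul]; rfl
  have hmain := integral_tsum_of_summable_integral_norm hint hnorm
  rw [setIntegral_congr_fun measurableSet_Ioi (g := fun x => ∑' j, F j x)
    (fun x hx => pair_pointG hP hg0 hq hqp hH hx), ← hmain]
  simp only [hval]
  have hsum2 : ∀ d ∈ g.divisors, Summable fun j : ℤ => H * ((μ d : ℝ) / (d * √(q : ℝ))) *
      (if (d : ℤ) ∣ j then chi j q * Gk (|(j : ℝ)| * H / ((d : ℝ) ^ 2 * q)) else 0) := fun d hd => by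
    refine Summable.of_norm_bounded (hsumd d hd) fun j => ?_
    rw [norm_mul, Real.norm_eq_abs]
    refine mul_le_mul_of_nonneg_left ?_ (abs_nonneg _)
    split_ifs
    · rw [norm_mul, Real.norm_eq_abs, Real.norm_of_nonneg (gk_nonneg _)]
      exact mul_le_of_le_one_left (gk_nonneg _) (chi_bound _ _)
    · rw [norm_zero]
      exact gk_nonneg _
  rw [Summable.tsum_finsetSum hsum2, Finset.mul_sum]
  refine Finset.sum_congr rfl fun d _ => ?_
  rw [tsum_mul_left, mul_assoc]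

/-- one side of the dual sum -/
noncomputable def Fd (ε : ℤ) (H : ℝ) (q d j : ℕ) : ℝ :=
  if d ∣ j then chi (ε * (j : ℤ)) q * Gk ((j : ℝ) * H / ((d : ℝ) ^ 2 * q)) else 0

lemma off_eq (hP : StPoisG) {g q : ℕ} (hg0 : g ≠ 0) (hq : Squarefree q)
    (hqp : Odd q) {H : ℝ} (hH : 0 < H) :
    Off H (g * g * q) = H * (
      (∑' j : ℕ, ∑ d ∈ g.divisors, (μ d : ℝ) / (d * √(q : ℝ)) * Fd 1 H q d (j + 1)) +
      ∑' j : ℕ, ∑ d ∈ g.divisors, (μ d : ℝ) / (d * √(q : ℝ)) * Fd (-1) H q d (j + 1)) := by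
  have hq0 : q ≠ 0 := hq.ne_zero
  have hqpos : (0 : ℝ) < q := by exact_mod_cast Nat.pos_of_ne_zero hq0
  unfold Off
  rw [pair_gen hP hg0 hq hqp hH, rho_eq hg0 hq]
  have hs : ∀ d ∈ g.divisors, Summable fun j : ℤ => (if (d : ℤ) ∣ j then chi j q *
      Gk (|(j : ℝ)| * H / ((d : ℝ) ^ 2 * q)) else 0) := fun d hd => by
    have hdpos : (0 : ℝ) < d := by exact_mod_cast Nat.pos_of_mem_divisors hd
    refine Summable.of_norm_bounded (summable_Gk (c := H / ((d : ℝ) ^ 2 * q)) (by positivity))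
      fun j => ?_
    rw [mul_div_assoc]
    split_ifs
    · rw [norm_mul, Real.norm_eq_abs, Real.norm_of_nonneg (gk_nonneg _)]
      exact mul_le_of_le_one_left (gk_nonneg _) (chi_bound _ _)
    · rw [norm_zero]
      exact gk_nonneg _
  have hpos : ∀ (d n : ℕ), (if (d : ℤ) ∣ ((n : ℤ) + 1) then chi ((n : ℤ) + 1) q *
      Gk (|(((n : ℤ) + 1 : ℤ) : ℝ)| * H / ((d : ℝ) ^ 2 * q)) else 0) = Fd 1 H q d (n + 1) := by
    intro d n
    have e1 : ((d : ℤ) ∣ (n : ℤ) + 1) ↔ d ∣ n + 1 := by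
      rw [← Int.natCast_dvd_natCast]
      push_cast
      rfl
    have e2 : |(((n : ℤ) + 1 : ℤ) : ℝ)| = ((n + 1 : ℕ) : ℝ) := by
      push_cast
      rw [abs_of_nonneg (by positivity)]
    unfold Fd
    simp only [e1, e2]
    push_cast
    rw [one_mul]
  have hneg : ∀ (d n : ℕ), (if (d : ℤ) ∣ (-((n : ℤ) + 1)) then chi (-((n : ℤ) + 1)) q *
      Gk (|((-((n : ℤ) + 1) : ℤ) : ℝ)| * H / ((d : ℝ) ^ 2 * q)) else 0) = Fd (-1) H q d (n + 1) := by
    intro d n
    have e1 : ((d : ℤ) ∣ -((n : ℤ) + 1)) ↔ d ∣ n + 1 := by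
      rw [dvd_neg, ← Int.natCast_dvd_natCast]
      push_cast
      rfl
    have e2 : |((-((n : ℤ) + 1) : ℤ) : ℝ)| = ((n + 1 : ℕ) : ℝ) := by
      rw [Int.cast_neg, abs_neg]
      push_cast
      rw [abs_of_nonneg (by positivity)]
    unfold Fd
    simp only [e1, e2]
    push_cast
    rw [neg_one_mul]
  have hs1 : ∀ d ∈ g.divisors, Summable fun n : ℕ => Fd 1 H q d (n + 1) := fun d hd => by
    refine ((hs d hd).comp_injective (i := fun n : ℕ => (n : ℤ) + 1) ?_).congr fun n => hpos d n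
    intro a b hab
    simpa using hab
  have hs2 : ∀ d ∈ g.divisors, Summable fun n : ℕ => Fd (-1) H q d (n + 1) := fun d hd => by
    refine ((hs d hd).comp_injective (i := fun n : ℕ => -((n : ℤ) + 1)) ?_).congr fun n => hneg d n
    intro a b hab
    simp only [neg_inj, add_left_inj, Nat.cast_inj] at hab
    exact hab
  have key : ∀ d ∈ g.divisors, ∑' j : ℤ, (if (d : ℤ) ∣ j then chi j q *
      Gk (|(j : ℝ)| * H / ((d : ℝ) ^ 2 * q)) else 0) = chi 0 q * 5040 +
      ((∑' j : ℕ, Fd 1 H q d (j + 1)) + ∑' j : ℕ, Fd (-1) H q d (j + 1)) := by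
    intro d hd
    set f : ℤ → ℝ := fun j : ℤ => (if (d : ℤ) ∣ j then chi j q *
      Gk (|(j : ℝ)| * H / ((d : ℝ) ^ 2 * q)) else 0) with hf
    have hsum := hs d hd
    have h2 : f 0 = chi 0 q * 5040 := by
      simp only [hf]
      rw [if_pos (dvd_zero _)]
      simp [Gk_zero]
    have hs3 : Summable fun n : ℕ => f (n : ℤ) :=
      hsum.comp_injective Nat.cast_injective
    have hs4 : Summable fun n : ℕ => f (-((n : ℤ) + 1)) := (hs2 d hd).congr fun n => (hneg d n).symm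
    rw [tsum_of_nat_of_neg_add_one hs3 hs4, hs3.tsum_eq_zero_add]
    have h4 : ∑' n : ℕ, f (((n + 1 : ℕ) : ℤ)) = ∑' n : ℕ, Fd 1 H q d (n + 1) := by
      refine tsum_congr fun n => ?_
      have h5 : f (((n + 1 : ℕ) : ℤ)) = f ((n : ℤ) + 1) := by push_cast; rfl
      exact h5.trans (hpos d n)
    rw [h4, tsum_congr fun n => hneg d n]
    have : f ((0 : ℕ) : ℤ) = f 0 := rfl
    rw [this, h2]
    ring
  have hF : ∀ ε : ℤ, (∀ d ∈ g.divisors, Summable fun n : ℕ => Fd ε H q d (n + 1)) →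
      ∑' j : ℕ, ∑ d ∈ g.divisors, (μ d : ℝ) / (d * √(q : ℝ)) * Fd ε H q d (j + 1) =
      ∑ d ∈ g.divisors, (μ d : ℝ) / (d * √(q : ℝ)) * ∑' j : ℕ, Fd ε H q d (j + 1) := by
    intro ε h
    rw [Summable.tsum_finsetSum fun d hd => (h d hd).mul_left _]
    exact Finset.sum_congr rfl fun d _ => tsum_mul_left
  rw [hF 1 hs1, hF (-1) hs2, Finset.sum_congr rfl fun d hd => by rw [key d hd],
    ← Finset.sum_add_distrib, Finset.mul_sum, Finset.mul_sum, Finset.mul_sum,
    ← Finset.sum_sub_distrib]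
  refine Finset.sum_congr rfl fun d _ => ?_
  ring

end Tw
end P004G
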