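import Vale.Agent.P004G.H253.Tw1
import Vale.Agent.P004G.H253.TwDefs
import Vale.Agent.P004G.H253.Base

/-!
# P004G, module D (twisted bilinear estimate), part 2: the dual sum
-/

open Real MeasureTheory Set Filter Topology
open scoped ENNReal NumberTheorySymbols ArithmeticFunction.Moebius

namespace P004G

namespace Tw

open P004 P004.Tw

/-- admissible `n` -/
def Adm (n : ℕ) : Prop := n ≠ 0 ∧ Odd n

lemma Adm.qf {n : ℕ} (hn : Adm n) : Odd (qf n) := by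
  have h := hn.2
  rw [← gg_mul hn.1] at h
  exact (Nat.odd_mul.1 h).2

/-! ### the dual terms -/

/-- the `j`-th dual term for `n = g² q`, for the sign `ε` -/
noncomputable def Tj (ε : ℤ) (H : ℝ) (j n : ℕ) : ℝ :=
  ∑ d ∈ (gg n).divisors, (μ d : ℝ) / (d * √(qf n : ℝ)) *
    (if d ∣ j then chi (ε * (j : ℤ)) (qf n) * Gk ((j : ℝ) * H / ((d : ℝ) ^ 2 * qf n)) else 0)

lemma off_eq_tj (hP : StPoisG) {n : ℕ} (hn : Adm n) {H : ℝ} (hH : 0 < H) :
    Off H n = H * ((∑' j : ℕ, Tj 1 H (j + 1) n) + ∑' j : ℕ, Tj (-1) H (j + 1) n) := by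
  have h := off_eq hP (gg_ne_zero n) (qf_sq n) hn.qf hH
  rw [gg_mul hn.1] at h
  exact h

/-- a bound for `Tj` in terms of a bound for the kernel -/
lemma abs_Tj_le {n : ℕ} (hn : n ≠ 0) (ε : ℤ) (H : ℝ) (j : ℕ) {B : ℝ} (hB0 : 0 ≤ B)
    (hB : ∀ d ∈ (gg n).divisors, Gk ((j : ℝ) * H / ((d : ℝ) ^ 2 * qf n)) ≤ B) :
    |Tj ε H j n| ≤ n * B := by
  unfold Tj
  have h1 : ∀ d ∈ (gg n).divisors, |(μ d : ℝ) / (d * √(qf n : ℝ)) *
      (if d ∣ j then chi (ε * (j : ℤ)) (qf n) * Gk ((j : ℝ) * H / ((d : ℝ) ^ 2 * qf n)) else 0)| ≤ B := by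
    intro d hd
    have hd1 : (1 : ℝ) ≤ d := by exact_mod_cast Nat.pos_of_mem_divisors hd
    have hq1 : (1 : ℝ) ≤ √(qf n : ℝ) := by
      rw [Real.one_le_sqrt]
      exact_mod_cast Nat.pos_of_ne_zero (qf_sq n).ne_zero
    rw [abs_mul, abs_div, abs_of_pos (by positivity : (0 : ℝ) < d * √(qf n : ℝ))]
    have e1 : |(μ d : ℝ)| / (d * √(qf n : ℝ)) ≤ 1 := by
      rw [div_le_one (by positivity)]
      have := abs_mu_le d
      nlinarith
    have e2 : |(if d ∣ j then chi (ε * (j : ℤ)) (qf n) *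
        Gk ((j : ℝ) * H / ((d : ℝ) ^ 2 * qf n)) else 0)| ≤ B := by
      split_ifs
      · rw [abs_mul, abs_of_nonneg (gk_nonneg _)]
        refine le_trans ?_ (hB d hd)
        exact mul_le_of_le_one_left (gk_nonneg _) (P004.H1.abs_chi_le _ _)
      · rw [abs_zero]; exact hB0
    calc _ ≤ 1 * B := mul_le_mul e1 e2 (abs_nonneg _) (by norm_num)
      _ = B := one_mul B
  refine (Finset.abs_sum_le_sum_abs _ _).trans ?_
  refine (Finset.sum_le_card_nsmul _ _ _ h1).trans ?_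
  rw [nsmul_eq_mul]
  have h2 : ((gg n).divisors.card : ℝ) ≤ n := by
    have : (gg n).divisors.card ≤ n := (Nat.card_divisors_le_self _).trans (gg_le hn)
    exact_mod_cast this
  exact mul_le_mul_of_nonneg_right h2 hB0

/-- `∑_j |Tj|` converges -/
lemma abs_Tj_le_sq (hK : StKer) : ∃ K : ℝ, 0 < K ∧ ∀ {n : ℕ}, n ≠ 0 → ∀ {H : ℝ}, 0 < H →
    ∀ (ε : ℤ) (j : ℕ), |Tj ε H (j + 1) n| ≤ n * (K * (n / H) ^ 2 * (1 / ((j : ℝ) + 1) ^ 2)) := by
  obtain ⟨K, hK0, hKd⟩ := P004.H1.Gk_decay hK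
  refine ⟨K, hK0, fun {n} hn {H} hH ε j => ?_⟩
  have hn' : (0 : ℝ) < n := by exact_mod_cast Nat.pos_of_ne_zero hn
  refine abs_Tj_le hn ε H (j + 1) (by positivity) fun d hd => ?_
  obtain ⟨h1, h2⟩ := dq_le hn hd
  refine (hKd _ (by positivity)).trans ?_
  have e : K / ((((j + 1 : ℕ) : ℝ)) * H / ((d : ℝ) ^ 2 * qf n)) ^ 2 =
      K * (((d : ℝ) ^ 2 * qf n) / H) ^ 2 * (1 / ((j : ℝ) + 1) ^ 2) := by
    push_cast
    field_simp
  rw [e]
  gcongr

lemma summable_Tj (hK : StKer) {n : ℕ} (hn : n ≠ 0) (ε : ℤ) {H : ℝ} (hH : 0 < H) :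
    Summable fun j : ℕ => Tj ε H (j + 1) n := by
  obtain ⟨K, hK0, h⟩ := abs_Tj_le_sq hK
  refine Summable.of_norm_bounded (g := fun j : ℕ => (n : ℝ) * (K * (n / H) ^ 2 *
    (1 / ((j : ℝ) + 1) ^ 2))) ?_ fun j => h hn hH ε j
  exact (summable_inv_sq.mul_left _).mul_left _

/-! ### `Toff` as a sum of `Off` -/

variable [Crv]

lemma adm_mul {t n₁ n₂ : ℕ} (ht : Good t) (h₁ : ca n₁ ≠ 0) (h₂ : ca n₂ ≠ 0) :
    Adm (t * (n₁ * n₂)) := by
  have h := ht.mul ((Good.of_ca h₁).mul (Good.of_ca h₂))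
  exact ⟨h.ne_zero, h.odd⟩

/-- the coefficient `a_{n₁} a_{n₂} e^{-π(n₁ u₁ + n₂ u₂)}` -/
noncomputable def cc (u₁ u₂ : ℝ) (p : ℕ × ℕ) : ℝ :=
  (ca p.1 * ca p.2) * Real.exp (-π * (p.1 * u₁ + p.2 * u₂))

/-- the weight of one variable -/
noncomputable def c1 (u : ℝ) (n : ℕ) : ℝ := (ca n : ℝ) * Real.exp (-π * n * u)

lemma cc_eq (u₁ u₂ : ℝ) (p : ℕ × ℕ) : cc u₁ u₂ p = c1 u₁ p.1 * c1 u₂ p.2 := by
  unfold cc c1
  rw [show -π * ((p.1 : ℝ) * u₁ + p.2 * u₂) = -π * p.1 * u₁ + -π * p.2 * u₂ by ring, Real.exp_add]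
  ring

lemma abs_c1_le (hC : StCoef) (u : ℝ) (n : ℕ) :
    |c1 u n| ≤ (n : ℝ) ^ 2 * Real.exp (-(π * u) * n) := by
  unfold c1
  rw [abs_mul, abs_of_pos (Real.exp_pos _), show -π * n * u = -(π * u) * n by ring]
  exact mul_le_mul_of_nonneg_right (abs_ca_le hC n) (Real.exp_pos _).le

lemma summable_c1 (hC : StCoef) {u : ℝ} (hu : 0 < u) (k : ℕ) :
    Summable fun n : ℕ => |c1 u n| * (n : ℝ) ^ k := by
  have h1 := Real.summable_pow_mul_exp_neg_nat_mul (k + 2) (r := π * u) (by positivity)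
  refine Summable.of_nonneg_of_le (fun n => by positivity) (fun n => ?_) h1
  calc |c1 u n| * (n : ℝ) ^ k ≤ ((n : ℝ) ^ 2 * Real.exp (-(π * u) * n)) * (n : ℝ) ^ k :=
        mul_le_mul_of_nonneg_right (abs_c1_le hC u n) (by positivity)
    _ = (n : ℝ) ^ (k + 2) * Real.exp (-(π * u) * n) := by ring

lemma summable_cc (hC : StCoef) {u₁ u₂ : ℝ} (h₁ : 0 < u₁) (h₂ : 0 < u₂) (k : ℕ) :
    Summable fun p : ℕ × ℕ => |cc u₁ u₂ p| * ((p.1 : ℝ) * p.2) ^ k := by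
  have h := (summable_c1 hC h₁ k).mul_of_nonneg (summable_c1 hC h₂ k)
    (fun n => by positivity) (fun n => by positivity)
  refine h.congr fun p => ?_
  rw [cc_eq, abs_mul, mul_pow]
  ring

lemma theta_mul (hC : StCoef) (h : ℤ) {u₁ u₂ : ℝ} (h₁ : 0 < u₁) (h₂ : 0 < u₂) :
    theta h u₁ * theta h u₂ = 16 * ∑' p : ℕ × ℕ, cc u₁ u₂ p * chi h (p.1 * p.2) := by
  have hs : ∀ {u : ℝ}, 0 < u → Summable fun n : ℕ => ‖c1 u n * chi h n‖ := fun {u} hu => by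
    have := summable_c1 hC hu 0
    refine Summable.of_nonneg_of_le (fun n => norm_nonneg _) (fun n => ?_) this
    rw [norm_mul, Real.norm_eq_abs, Real.norm_eq_abs, pow_zero, mul_one]
    exact mul_le_of_le_one_right (abs_nonneg _) (P004.H1.abs_chi_le _ _)
  have ht : ∀ u : ℝ, theta h u = 4 * ∑' n : ℕ, c1 u n * chi h n := fun u => by
    unfold theta c1
    congr 1
    exact tsum_congr fun n => by ring
  rw [ht, ht]
  have e : (4 * ∑' n : ℕ, c1 u₁ n * chi h n) * (4 * ∑' n : ℕ, c1 u₂ n * chi h n) =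
      16 * ((∑' n : ℕ, c1 u₁ n * chi h n) * ∑' n : ℕ, c1 u₂ n * chi h n) := by ring
  rw [e, tsum_mul_tsum_of_summable_norm (hs h₁) (hs h₂)]
  congr 1
  refine tsum_congr fun p => ?_
  rw [cc_eq]
  by_cases h1 : p.1 = 0
  · simp [h1, c1, hC.zero]
  by_cases h2 : p.2 = 0
  · simp [h2, c1, hC.zero]
  rw [P004.H1.chi_mul h h1 h2]
  ring

/-- `Toff` as a sum over pairs -/
lemma toff_eq (hC : StCoef) {H : ℝ} (hH : 0 < H) {t : ℕ} (ht : t ≠ 0) {u₁ u₂ : ℝ} (h₁ : 0 < u₁)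
    (h₂ : 0 < u₂) :
    Toff H t u₁ u₂ = 16 * ∑' p : ℕ × ℕ, cc u₁ u₂ p * Off H (t * (p.1 * p.2)) := by
  have hcc : Summable fun p : ℕ × ℕ => |cc u₁ u₂ p| := by
    simpa using summable_cc hC h₁ h₂ 0
  have hsum : Summable (Function.uncurry fun (h : ℤ) (p : ℕ × ℕ) =>
      P004.H1.ah H h * (cc u₁ u₂ p * chi h (t * (p.1 * p.2)))) := by
    have h2 := (P004.H1.summable_ah hH).mul_of_nonneg hcc (P004.H1.ah_nonneg H) (fun n => by positivity)
    refine Summable.of_norm_bounded h2 fun x => ?_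
    simp only [Function.uncurry]
    rw [norm_mul, norm_mul, Real.norm_eq_abs, Real.norm_eq_abs, Real.norm_eq_abs,
      abs_of_nonneg (P004.H1.ah_nonneg H x.1)]
    refine mul_le_mul_of_nonneg_left ?_ (P004.H1.ah_nonneg H x.1)
    exact mul_le_of_le_one_right (by positivity) (P004.H1.abs_chi_le _ _)
  have e1 : ∀ h : ℤ, P004.H1.ah H h * (chi h t * (theta h u₁ * theta h u₂)) =
      16 * ∑' p : ℕ × ℕ, P004.H1.ah H h * (cc u₁ u₂ p * chi h (t * (p.1 * p.2))) := by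
    intro h
    rw [theta_mul hC h h₁ h₂, tsum_mul_left, ← mul_assoc, ← mul_assoc, ← mul_assoc,
      mul_comm (P004.H1.ah H h * chi h t) 16, mul_assoc, mul_assoc, mul_assoc]
    congr 2
    rw [← tsum_mul_left]
    refine tsum_congr fun p => ?_
    by_cases hp : p.1 = 0 ∨ p.2 = 0
    · have : cc u₁ u₂ p = 0 := by
        rw [cc_eq]
        rcases hp with hp | hp <;> simp [hp, c1, hC.zero]
      rw [this]; ring
    · rw [not_or] at hp
      rw [P004.H1.chi_mul h ht (Nat.mul_ne_zero hp.1 hp.2)]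
      ring
  have e2 : ∑' h : ℤ, P004.H1.ah H h * (chi h t * (theta h u₁ * theta h u₂)) =
      16 * ∑' p : ℕ × ℕ, cc u₁ u₂ p * ∑' h : ℤ, P004.H1.ah H h * chi h (t * (p.1 * p.2)) := by
    rw [tsum_congr e1, tsum_mul_left, ← hsum.tsum_comm]
    congr 1
    refine tsum_congr fun p => ?_
    rw [← tsum_mul_left]
    exact tsum_congr fun h => by ring
  have e3 : Emain t u₁ u₂ = 16 * ∑' p : ℕ × ℕ, cc u₁ u₂ p * rho (t * (p.1 * p.2)) := by
    unfold Emain cc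
    congr 1
    exact tsum_congr fun p => by ring
  unfold Toff
  rw [e2, e3]
  have hs1 : Summable fun p : ℕ × ℕ => cc u₁ u₂ p * ∑' h : ℤ, P004.H1.ah H h * chi h (t * (p.1 * p.2)) := by
    refine Summable.of_norm_bounded (hcc.mul_right (∑' h : ℤ, P004.H1.ah H h)) fun p => ?_
    rw [norm_mul, Real.norm_eq_abs]
    refine mul_le_mul_of_nonneg_left ?_ (abs_nonneg _)
    refine tsum_of_norm_bounded (P004.H1.summable_ah hH).hasSum fun h => ?_
    rw [norm_mul, Real.norm_eq_abs, Real.norm_eq_abs, abs_of_nonneg (P004.H1.ah_nonneg H h)]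
    exact mul_le_of_le_one_right (P004.H1.ah_nonneg H h) (P004.H1.abs_chi_le _ _)
  have hs2 : Summable fun p : ℕ × ℕ => cc u₁ u₂ p * (5040 * H * rho (t * (p.1 * p.2))) := by
    refine Summable.of_norm_bounded (hcc.mul_right (5040 * H)) fun p => ?_
    rw [norm_mul, Real.norm_eq_abs, Real.norm_eq_abs]
    refine mul_le_mul_of_nonneg_left ?_ (abs_nonneg _)
    rw [abs_of_nonneg (mul_nonneg (by positivity) (rho_nonneg _))]
    exact mul_le_of_le_one_right (by positivity) (rho_le_one _)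
  have e4 : 5040 * H * (16 * ∑' p : ℕ × ℕ, cc u₁ u₂ p * rho (t * (p.1 * p.2))) =
      16 * ∑' p : ℕ × ℕ, cc u₁ u₂ p * (5040 * H * rho (t * (p.1 * p.2))) := by
    rw [← mul_assoc, mul_comm (5040 * H) 16, mul_assoc, ← tsum_mul_left]
    congr 1
    exact tsum_congr fun p => by ring
  rw [e4, ← mul_sub, ← hs1.tsum_sub hs2]
  congr 1
  refine tsum_congr fun p => ?_
  unfold Off
  ring

end Tw
end P004G
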