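import Vale.Agent.P004G.H253.Tw2
import Vale.Agent.P004.H253.Tw3

/-!
# P004G, module D (twisted bilinear estimate), part 3: the tail of the dual sum
-/

open Real MeasureTheory Set Filter Topology
open scoped ENNReal NumberTheorySymbols ArithmeticFunction.Moebius

namespace P004G

variable [Crv]

namespace Tw

open P004 P004.Tw

/-- the `j`-th dual sum -/
noncomputable def Sj (ε : ℤ) (H : ℝ) (t j : ℕ) (u₁ u₂ : ℝ) : ℝ :=
  ∑' p : ℕ × ℕ, cc u₁ u₂ p * Tj ε H j (t * (p.1 * p.2))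

/-- the tail of the dual sum -/
noncomputable def Tt (ε : ℤ) (H : ℝ) (t Z : ℕ) (u₁ u₂ : ℝ) : ℝ :=
  ∑' p : ℕ × ℕ, cc u₁ u₂ p * ∑' j : ℕ, Tj ε H (j + Z + 1) (t * (p.1 * p.2))

lemma cc_zero (hC : StCoef) (u₁ u₂ : ℝ) {p : ℕ × ℕ} (h : p.1 = 0 ∨ p.2 = 0) : cc u₁ u₂ p = 0 := by
  rw [cc_eq]
  rcases h with h | h <;> simp [h, c1, hC.zero]

lemma summable_Sj (hC : StCoef) (hK : StKer) (ε : ℤ) {H : ℝ} (hH : 0 < H) {t : ℕ} (ht : t ≠ 0) (j : ℕ)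
    {u₁ u₂ : ℝ} (h₁ : 0 < u₁) (h₂ : 0 < u₂) :
    Summable fun p : ℕ × ℕ => cc u₁ u₂ p * Tj ε H (j + 1) (t * (p.1 * p.2)) := by
  obtain ⟨K, hK0, h⟩ := abs_Tj_le_sq hK
  have hs := (summable_cc hC h₁ h₂ 3).mul_right (t * (K * (t / H) ^ 2 * (1 / ((j : ℝ) + 1) ^ 2)))
  refine Summable.of_norm_bounded hs fun p => ?_
  by_cases hp : p.1 = 0 ∨ p.2 = 0
  · rw [cc_zero hC _ _ hp, zero_mul, norm_zero]
    simp
  rw [not_or] at hp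
  rw [norm_mul, Real.norm_eq_abs, Real.norm_eq_abs, mul_assoc]
  refine mul_le_mul_of_nonneg_left ?_ (abs_nonneg _)
  refine (h (Nat.mul_ne_zero ht (Nat.mul_ne_zero hp.1 hp.2)) hH ε j).trans (le_of_eq ?_)
  push_cast
  field_simp

lemma summable_Tt (hC : StCoef) (hK : StKer) (ε : ℤ) {H : ℝ} (hH : 0 < H) {t : ℕ} (ht : t ≠ 0) (Z : ℕ)
    {u₁ u₂ : ℝ} (h₁ : 0 < u₁) (h₂ : 0 < u₂) :
    Summable fun p : ℕ × ℕ => cc u₁ u₂ p * ∑' j : ℕ, Tj ε H (j + Z + 1) (t * (p.1 * p.2)) := by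
  obtain ⟨K, hK0, h⟩ := abs_Tj_le_sq hK
  have hs := (summable_cc hC h₁ h₂ 3).mul_right (t * (K * (t / H) ^ 2 *
    ∑' j : ℕ, (1 / ((j : ℝ) + 1) ^ 2)))
  refine Summable.of_norm_bounded hs fun p => ?_
  by_cases hp : p.1 = 0 ∨ p.2 = 0
  · rw [cc_zero hC _ _ hp, zero_mul, norm_zero]
    simp
  rw [not_or] at hp
  rw [norm_mul, Real.norm_eq_abs, mul_assoc]
  refine mul_le_mul_of_nonneg_left ?_ (abs_nonneg _)
  have hn : t * (p.1 * p.2) ≠ 0 := Nat.mul_ne_zero ht (Nat.mul_ne_zero hp.1 hp.2)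
  have hs2 : Summable fun j : ℕ => ((t * (p.1 * p.2) : ℕ) : ℝ) * (K * (((t * (p.1 * p.2) : ℕ) : ℝ) / H) ^ 2 *
    (1 / ((j : ℝ) + 1) ^ 2)) := (summable_inv_sq.mul_left _).mul_left _
  have h3 : ‖∑' j : ℕ, Tj ε H (j + Z + 1) (t * (p.1 * p.2))‖ ≤
      ∑' j : ℕ, ((t * (p.1 * p.2) : ℕ) : ℝ) * (K * (((t * (p.1 * p.2) : ℕ) : ℝ) / H) ^ 2 *
    (1 / ((j : ℝ) + 1) ^ 2)) := by
    refine tsum_of_norm_bounded hs2.hasSum fun j => ?_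
    refine (h hn hH ε (j + Z)).trans ?_
    push_cast
    gcongr
    linarith [(Nat.cast_nonneg Z : (0 : ℝ) ≤ Z)]
  refine h3.trans (le_of_eq ?_)
  rw [tsum_mul_left, tsum_mul_left]
  push_cast
  field_simp

/-- the splitting of `Toff` -/
lemma toff_split (hC : StCoef) (hP : StPoisG) (hK : StKer) {H : ℝ} (hH : 0 < H) {t : ℕ}
    (ht : Good t) (Z : ℕ) {u₁ u₂ : ℝ} (h₁ : 0 < u₁) (h₂ : 0 < u₂) :
    Toff H t u₁ u₂ = 16 * H * (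
      (∑ j ∈ Finset.range Z, Sj 1 H t (j + 1) u₁ u₂ + Tt 1 H t Z u₁ u₂) +
      (∑ j ∈ Finset.range Z, Sj (-1) H t (j + 1) u₁ u₂ + Tt (-1) H t Z u₁ u₂)) := by
  have ht0 : t ≠ 0 := ht.ne_zero
  rw [toff_eq hC hH ht0 h₁ h₂]
  have e : ∀ p : ℕ × ℕ, cc u₁ u₂ p * Off H (t * (p.1 * p.2)) =
      H * ((∑ j ∈ Finset.range Z, cc u₁ u₂ p * Tj 1 H (j + 1) (t * (p.1 * p.2)) +
        cc u₁ u₂ p * ∑' j : ℕ, Tj 1 H (j + Z + 1) (t * (p.1 * p.2))) +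
        (∑ j ∈ Finset.range Z, cc u₁ u₂ p * Tj (-1) H (j + 1) (t * (p.1 * p.2)) +
        cc u₁ u₂ p * ∑' j : ℕ, Tj (-1) H (j + Z + 1) (t * (p.1 * p.2)))) := by
    intro p
    by_cases h0 : cc u₁ u₂ p = 0
    · simp [h0]
    have hca : (ca p.1 : ℝ) * ca p.2 ≠ 0 := by
      intro h
      apply h0
      unfold cc
      rw [h, zero_mul]
    have h1 : ca p.1 ≠ 0 := by
      intro h
      apply hca
      rw [h]; simp
    have h2 : ca p.2 ≠ 0 := by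
      intro h
      apply hca
      rw [h]; simp
    have hadm := adm_mul ht h1 h2
    rw [off_eq_tj hP hadm hH, ← (summable_Tj hK hadm.1 1 hH).sum_add_tsum_nat_add Z,
      ← (summable_Tj hK hadm.1 (-1) hH).sum_add_tsum_nat_add Z,
      ← Finset.mul_sum, ← Finset.mul_sum, ← mul_add, ← mul_add, ← mul_add]
    ring
  have s : ∀ ε : ℤ, Summable fun p : ℕ × ℕ =>
      ∑ j ∈ Finset.range Z, cc u₁ u₂ p * Tj ε H (j + 1) (t * (p.1 * p.2)) +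
        cc u₁ u₂ p * ∑' j : ℕ, Tj ε H (j + Z + 1) (t * (p.1 * p.2)) := fun ε =>
    (summable_sum fun j _ => summable_Sj hC hK ε hH ht0 j h₁ h₂).add
      (summable_Tt hC hK ε hH ht0 Z h₁ h₂)
  have v : ∀ ε : ℤ, ∑' p : ℕ × ℕ,
      (∑ j ∈ Finset.range Z, cc u₁ u₂ p * Tj ε H (j + 1) (t * (p.1 * p.2)) +
        cc u₁ u₂ p * ∑' j : ℕ, Tj ε H (j + Z + 1) (t * (p.1 * p.2))) =
      ∑ j ∈ Finset.range Z, Sj ε H t (j + 1) u₁ u₂ + Tt ε H t Z u₁ u₂ := fun ε => by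
    rw [Summable.tsum_add (summable_sum fun j _ => summable_Sj hC hK ε hH ht0 j h₁ h₂)
      (summable_Tt hC hK ε hH ht0 Z h₁ h₂),
      Summable.tsum_finsetSum fun j _ => summable_Sj hC hK ε hH ht0 j h₁ h₂]
    rfl
  rw [tsum_congr e, tsum_mul_left, (s 1).tsum_add (s (-1)), v 1, v (-1)]
  ring

/-- one term of the tail -/
lemma tail_term (hC : StCoef) (hK : StKer) : ∃ K : ℝ, 1 ≤ K ∧
    ∀ (ε : ℤ) (H Λ N₁ N₂ u₁ u₂ : ℝ) (t J : ℕ) (p : ℕ × ℕ), 1 ≤ H → 1 ≤ Λ → 1 ≤ N₁ → 1 ≤ N₂ →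
      t ≠ 0 → 0 < J →
      1 / (3 * N₁) ≤ u₁ → 1 / (3 * N₂) ≤ u₂ → t * (N₁ * N₂) * Λ ^ 17 ≤ J * H →
      |cc u₁ u₂ p * Tj ε H J (t * (p.1 * p.2))| ≤
        K * Real.exp (-Λ / 4) * (t ^ 3 * (N₁ * N₂) ^ 2) * (1 / (J : ℝ) ^ 2) *
          (((p.1 : ℝ) ^ 3 * Real.exp (-(π / 2) * p.1 * u₁)) *
            ((p.2 : ℝ) ^ 3 * Real.exp (-(π / 2) * p.2 * u₂))) := by
  obtain ⟨K, hK1, hKb⟩ := P004.H5.kernel_bound hK
  refine ⟨K * (Nat.factorial 34 * 4 ^ 34), ?_, ?_⟩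
  · have h1 : (1 : ℝ) ≤ (Nat.factorial 34 : ℝ) := by exact_mod_cast Nat.one_le_iff_ne_zero.2 (Nat.factorial_ne_zero 34)
    have h2 : (1 : ℝ) ≤ 4 ^ 34 := by norm_num
    have h3 : (1 : ℝ) ≤ Nat.factorial 34 * 4 ^ 34 := by nlinarith
    nlinarith
  intro ε H Λ N₁ N₂ u₁ u₂ t J p hH hΛ hN₁ hN₂ ht hJ hu₁ hu₂ hJH
  have hN₁0 : 0 < N₁ := by linarith
  have hN₂0 : 0 < N₂ := by linarith
  have hH0 : 0 < H := by linarith
  have ht' : (1 : ℝ) ≤ t := by exact_mod_cast Nat.pos_of_ne_zero ht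
  have ht0 : (0 : ℝ) < t := by linarith
  have hJ' : (1 : ℝ) ≤ J := by exact_mod_cast hJ
  have hJ0 : (0 : ℝ) < J := by linarith
  by_cases hp : p.1 = 0 ∨ p.2 = 0
  · rw [cc_zero hC _ _ hp, zero_mul, abs_zero]
    positivity
  rw [not_or] at hp
  have hn : t * (p.1 * p.2) ≠ 0 := Nat.mul_ne_zero ht (Nat.mul_ne_zero hp.1 hp.2)
  have hp1 : (1 : ℝ) ≤ p.1 := by exact_mod_cast Nat.pos_of_ne_zero hp.1
  have hp2 : (1 : ℝ) ≤ p.2 := by exact_mod_cast Nat.pos_of_ne_zero hp.2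
  set P : ℝ := J * H / (t * (N₁ * N₂)) with hP
  have hPΛ : Λ ^ 17 ≤ P := by
    rw [hP, le_div_iff₀ (by positivity)]
    linarith
  have hP1 : 1 ≤ P := le_trans (one_le_pow₀ hΛ) hPΛ
  have hP0 : 0 < P := by linarith
  set M : ℝ := (p.1 : ℝ) / N₁ + p.2 / N₂ with hM
  have hM0 : 0 < M := by positivity
  set U : ℝ := (p.1 * u₁ + p.2 * u₂) / M with hU
  have hMU : M * U = p.1 * u₁ + p.2 * u₂ := by rw [hU]; field_simp
  have hUge : 1 / (3 * 1) ≤ U := by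
    rw [hU, le_div_iff₀ hM0, hM]
    have g1 : (p.1 : ℝ) * (1 / (3 * N₁)) ≤ p.1 * u₁ := by gcongr
    have g2 : (p.2 : ℝ) * (1 / (3 * N₂)) ≤ p.2 * u₂ := by gcongr
    have g3 : (1 : ℝ) / (3 * 1) * (p.1 / N₁ + p.2 / N₂) =
        p.1 * (1 / (3 * N₁)) + p.2 * (1 / (3 * N₂)) := by
      field_simp
    linarith
  set E : ℝ := Real.exp (-(P ^ (1 / 17 : ℝ)) / 2) with hE
  have hkey : |Tj ε H J (t * (p.1 * p.2))| ≤ ((t * (p.1 * p.2) : ℕ) : ℝ) *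
      (K * E * Real.exp ((π / 2) * M * U)) := by
    refine abs_Tj_le hn ε H J (by positivity) fun d hd => ?_
    obtain ⟨h1, h2⟩ := dq_le hn hd
    have h3 : P * 1 ^ 2 / M ^ 2 ≤ (J : ℝ) * H / ((d : ℝ) ^ 2 * qf (t * (p.1 * p.2))) := by
      have h4 : (d : ℝ) ^ 2 * qf (t * (p.1 * p.2)) ≤ t * (N₁ * N₂ * M ^ 2) := by
        refine h2.trans ?_
        push_cast
        have : (p.1 : ℝ) * p.2 ≤ N₁ * N₂ * M ^ 2 := by
          have g1 : (p.1 : ℝ) / N₁ * (p.2 / N₂) ≤ M ^ 2 := by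
            have g2 : 0 ≤ (p.1 : ℝ) / N₁ := by positivity
            have g3 : 0 ≤ (p.2 : ℝ) / N₂ := by positivity
            rw [hM]; nlinarith
          calc (p.1 : ℝ) * p.2 = N₁ * N₂ * (p.1 / N₁ * (p.2 / N₂)) := by field_simp
            _ ≤ _ := by gcongr
        gcongr
      have h5 : P * 1 ^ 2 / M ^ 2 = (J : ℝ) * H / (t * (N₁ * N₂ * M ^ 2)) := by
        rw [hP]; field_simp
      rw [h5]
      gcongr
    have h6 := hKb P 1 M _ U hP1 le_rfl hM0 h3 hUge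
    have h7 : Real.exp (-π * M * U) * Real.exp (π * M * U) = 1 := by
      rw [← Real.exp_add]; ring_nf; exact Real.exp_zero
    have h8 : Real.exp (-(π / 2) * M * U) * Real.exp (π * M * U) = Real.exp ((π / 2) * M * U) := by
      rw [← Real.exp_add]; congr 1; ring
    calc Gk ((J : ℝ) * H / ((d : ℝ) ^ 2 * qf (t * (p.1 * p.2))))
        = (Gk ((J : ℝ) * H / ((d : ℝ) ^ 2 * qf (t * (p.1 * p.2)))) * Real.exp (-π * M * U)) *
          Real.exp (π * M * U) := by rw [mul_assoc, h7, mul_one]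
      _ ≤ (K * E * Real.exp (-(π / 2) * M * U)) * Real.exp (π * M * U) := by
          gcongr
      _ = _ := by rw [mul_assoc, h8]
  have hy : Λ ≤ P ^ (1 / 17 : ℝ) := by
    have h1 : (Λ ^ 17) ^ (1 / 17 : ℝ) ≤ P ^ (1 / 17 : ℝ) :=
      Real.rpow_le_rpow (by positivity) hPΛ (by norm_num)
    have h2 : (Λ ^ 17) ^ (1 / 17 : ℝ) = Λ := by
      rw [← Real.rpow_natCast, ← Real.rpow_mul (by linarith)]; norm_num
    rwa [h2] at h1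
  have hE2 : E ≤ Real.exp (-Λ / 4) * ((Nat.factorial 34 * 4 ^ 34) * (t ^ 2 * (N₁ * N₂) ^ 2 * (1 / (J : ℝ) ^ 2))) := by
    set y : ℝ := P ^ (1 / 17 : ℝ) with hydef
    have hy0 : 0 < y := by positivity
    have h4 : E = Real.exp (-y / 4) * Real.exp (-(y / 4)) := by
      rw [hE, ← Real.exp_add]; congr 1; ring
    have h5 : Real.exp (-y / 4) ≤ Real.exp (-Λ / 4) := by
      apply Real.exp_le_exp.2; linarith
    have h6 : Real.exp (-(y / 4)) ≤ (Nat.factorial 34 * 4 ^ 34) / P ^ 2 := by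
      have h7 := Real.pow_div_factorial_le_exp (x := y / 4) (by positivity) 34
      have h8 : y ^ 34 = P ^ 2 := by
        rw [hydef, ← Real.rpow_natCast, ← Real.rpow_mul hP0.le]; norm_num
      rw [Real.exp_neg, inv_le_comm₀ (by positivity) (by positivity), inv_div]
      refine le_trans (le_of_eq ?_) h7
      rw [div_pow (y : ℝ) 4 34, h8, div_div (P ^ 2) (4 ^ 34)]
      congr 1
      ring
    have h9 : 1 / P ^ 2 ≤ t ^ 2 * (N₁ * N₂) ^ 2 * (1 / (J : ℝ) ^ 2) := by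
      have h10 : (J : ℝ) / (t * (N₁ * N₂)) ≤ P := by
        rw [hP]
        gcongr
        nlinarith
      calc 1 / P ^ 2 ≤ 1 / ((J : ℝ) / (t * (N₁ * N₂))) ^ 2 := by gcongr
        _ = _ := by field_simp
    rw [h4]
    calc Real.exp (-y / 4) * Real.exp (-(y / 4))
        ≤ Real.exp (-Λ / 4) * ((Nat.factorial 34 * 4 ^ 34) / P ^ 2) := by gcongr
      _ = Real.exp (-Λ / 4) * ((Nat.factorial 34 * 4 ^ 34) * (1 / P ^ 2)) := by ring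
      _ ≤ _ := by gcongr
  have hcc : |cc u₁ u₂ p| ≤ ((p.1 : ℝ) ^ 2 * (p.2 : ℝ) ^ 2) * Real.exp (-π * M * U) := by
    unfold cc
    rw [abs_mul, abs_mul, abs_of_pos (Real.exp_pos _), show -π * M * U = -π * (M * U) by ring, hMU]
    have h1 := abs_ca_le hC p.1
    have h2 := abs_ca_le hC p.2
    gcongr
  have hfin : Real.exp (-π * M * U) * Real.exp ((π / 2) * M * U) =
      Real.exp (-(π / 2) * p.1 * u₁) * Real.exp (-(π / 2) * p.2 * u₂) := by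
    rw [← Real.exp_add, ← Real.exp_add]
    congr 1
    have : -π * M * U + π / 2 * M * U = -(π / 2) * (M * U) := by ring
    rw [this, hMU]
    ring
  rw [abs_mul]
  calc |cc u₁ u₂ p| * |Tj ε H J (t * (p.1 * p.2))|
      ≤ (((p.1 : ℝ) ^ 2 * (p.2 : ℝ) ^ 2) * Real.exp (-π * M * U)) *
        (((t * (p.1 * p.2) : ℕ) : ℝ) * (K * E * Real.exp ((π / 2) * M * U))) := by gcongr
    _ = K * E * t * ((p.1 : ℝ) ^ 3 * (p.2 : ℝ) ^ 3) *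
        (Real.exp (-π * M * U) * Real.exp ((π / 2) * M * U)) := by push_cast; ring
    _ = K * E * t * ((p.1 : ℝ) ^ 3 * (p.2 : ℝ) ^ 3) *
        (Real.exp (-(π / 2) * p.1 * u₁) * Real.exp (-(π / 2) * p.2 * u₂)) := by rw [hfin]
    _ ≤ K * (Real.exp (-Λ / 4) * ((Nat.factorial 34 * 4 ^ 34) *
          (t ^ 2 * (N₁ * N₂) ^ 2 * (1 / (J : ℝ) ^ 2)))) * t * ((p.1 : ℝ) ^ 3 * (p.2 : ℝ) ^ 3) *
        (Real.exp (-(π / 2) * p.1 * u₁) * Real.exp (-(π / 2) * p.2 * u₂)) := by gcongr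
    _ = _ := by ring

/-- the bound for the tail -/
lemma tail_bound (hC : StCoef) (hK : StKer) : ∃ K : ℝ, 1 ≤ K ∧
    ∀ (ε : ℤ) (H Λ N₁ N₂ u₁ u₂ : ℝ) (t Z : ℕ), 1 ≤ H → 1 ≤ Λ → 1 ≤ N₁ → 1 ≤ N₂ → t ≠ 0 →
      1 / (3 * N₁) ≤ u₁ → 1 / (3 * N₂) ≤ u₂ → t * (N₁ * N₂) * Λ ^ 17 ≤ (Z + 1) * H →
      |Tt ε H t Z u₁ u₂| ≤ K * Real.exp (-Λ / 4) * (t ^ 3 * (N₁ * N₂) ^ 2) *
        ((1 / u₁ ^ 5) * (1 / u₂ ^ 5)) := by
  obtain ⟨K, hK1, hKb⟩ := tail_term hC hK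
  have hs0 : Summable fun n : ℕ => 1 / (n : ℝ) ^ 2 := Real.summable_one_div_nat_pow.2 (by norm_num)
  set ζ : ℝ := ∑' n : ℕ, 1 / (n : ℝ) ^ 2 with hζ
  set ζ' : ℝ := ∑' n : ℕ, 1 / ((n : ℝ) + 1) ^ 2 with hζ'
  have hζ1 : 1 ≤ ζ := by
    have h : 1 / (((1 : ℕ) : ℝ)) ^ 2 ≤ ζ := hs0.le_tsum 1 (fun n _ => by positivity)
    rwa [Nat.cast_one, one_pow, div_one] at h
  have hζ'1 : 1 ≤ ζ' := by
    have h : 1 / (((0 : ℕ) : ℝ) + 1) ^ 2 ≤ ζ' := summable_inv_sq.le_tsum 0 (fun n _ => by positivity)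
    rwa [Nat.cast_zero, zero_add, one_pow, div_one] at h
  refine ⟨K * ζ' * (120 * ζ) * (120 * ζ), ?_, ?_⟩
  · have h1 : 1 ≤ K * ζ' := by nlinarith
    have h2 : 1 ≤ 120 * ζ := by linarith
    have h3 : 1 ≤ K * ζ' * (120 * ζ) := by nlinarith
    nlinarith
  intro ε H Λ N₁ N₂ u₁ u₂ t Z hH hΛ hN₁ hN₂ ht hu₁ hu₂ hZ
  have hN₁0 : 0 < N₁ := by linarith
  have hN₂0 : 0 < N₂ := by linarith
  have hu₁0 : 0 < u₁ := lt_of_lt_of_le (by positivity) hu₁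
  have hu₂0 : 0 < u₂ := lt_of_lt_of_le (by positivity) hu₂
  set A : ℝ := K * Real.exp (-Λ / 4) * (t ^ 3 * (N₁ * N₂) ^ 2) with hA
  have hA0 : 0 ≤ A := by positivity
  set φ : ℕ × ℕ → ℝ := fun p => ((p.1 : ℝ) ^ 3 * Real.exp (-(π / 2) * p.1 * u₁)) *
            ((p.2 : ℝ) ^ 3 * Real.exp (-(π / 2) * p.2 * u₂)) with hφ
  have hφ0 : ∀ p, 0 ≤ φ p := fun p => by simp only [hφ]; positivity
  obtain ⟨s1, b1⟩ := sum_cube u₁ hu₁0
  obtain ⟨s2, b2⟩ := sum_cube u₂ hu₂0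
  have hsφ : Summable φ := s1.mul_of_nonneg s2 (fun n => by positivity) (fun n => by positivity)
  have hφsum : ∑' p, φ p = (∑' n : ℕ, (n : ℝ) ^ 3 * Real.exp (-(π / 2) * n * u₁)) *
      ∑' n : ℕ, (n : ℝ) ^ 3 * Real.exp (-(π / 2) * n * u₂) :=
    (s1.tsum_mul_tsum s2 hsφ).symm
  have hterm : ∀ p : ℕ × ℕ, ‖cc u₁ u₂ p * ∑' j : ℕ, Tj ε H (j + Z + 1) (t * (p.1 * p.2))‖ ≤
      A * ζ' * φ p := by
    intro p
    rw [← tsum_mul_left]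
    have hsj : Summable fun j : ℕ => A * φ p * (1 / ((j : ℝ) + 1) ^ 2) := summable_inv_sq.mul_left _
    refine (tsum_of_norm_bounded hsj.hasSum fun j => ?_).trans (le_of_eq ?_)
    · have h := hKb ε H Λ N₁ N₂ u₁ u₂ t (j + Z + 1) p hH hΛ hN₁ hN₂ ht (by omega) hu₁ hu₂ (by
        refine hZ.trans ?_
        push_cast
        have : (0 : ℝ) ≤ j := Nat.cast_nonneg j
        nlinarith)
      rw [Real.norm_eq_abs]
      refine h.trans ?_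
      have h2 : 1 / (((j + Z + 1 : ℕ) : ℝ)) ^ 2 ≤ 1 / ((j : ℝ) + 1) ^ 2 := by
        push_cast
        gcongr
        linarith [(Nat.cast_nonneg Z : (0 : ℝ) ≤ Z)]
      have h3 := hφ0 p
      calc _ = A * φ p * (1 / (((j + Z + 1 : ℕ) : ℝ)) ^ 2) := by rw [hA, hφ]; ring
        _ ≤ _ := by gcongr
    · rw [tsum_mul_left, ← hζ']
      ring
  unfold Tt
  rw [← Real.norm_eq_abs]
  refine (tsum_of_norm_bounded ((hsφ.mul_left (A * ζ')).hasSum) hterm).trans ?_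
  rw [tsum_mul_left, hφsum]
  have n1 : 0 ≤ ∑' n : ℕ, (n : ℝ) ^ 3 * Real.exp (-(π / 2) * n * u₁) :=
    tsum_nonneg fun n => by positivity
  have n2 : 0 ≤ ∑' n : ℕ, (n : ℝ) ^ 3 * Real.exp (-(π / 2) * n * u₂) :=
    tsum_nonneg fun n => by positivity
  calc A * ζ' * ((∑' n : ℕ, (n : ℝ) ^ 3 * Real.exp (-(π / 2) * n * u₁)) *
      ∑' n : ℕ, (n : ℝ) ^ 3 * Real.exp (-(π / 2) * n * u₂))
      ≤ A * ζ' * ((120 * ζ * (1 / u₁ ^ 5)) * (120 * ζ * (1 / u₂ ^ 5))) := by gcongr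
    _ = _ := by rw [hA]; ring

end Tw
end P004G
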