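import Vale.Agent.P004G.H253.TwDefs
import Vale.Agent.P004G.H253.Base
import Vale.Agent.P004.H253.Tw5

/-!
# P004G, module D (twisted bilinear estimate), part 5: the bound for one dual term
-/

open Real MeasureTheory Set Filter
open scoped ENNReal Topology

namespace P004G

variable [Crv]

namespace Tw

open P004.Tw (lint_pos enorm_sq_ofReal cs1)

lemma measurable_TGv {θ : ℝ} (hθ : 0 < θ) (R : ℕ) (m : ℤ) (v : ℝ) :
    Measurable fun u : ℝ => TG θ R m (v, u) := by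
  have h1 := measurable_TG hθ R m
  exact h1.comp (by fun_prop)

lemma nrm_TG (θ v : ℝ) (R : ℕ) (m : ℤ) :
    nrm θ (fun u => TG θ R m (v, u)) = nrm θ (Tf θ v R m) := by
  unfold nrm
  refine setLIntegral_congr_fun measurableSet_Ioi fun u hu => ?_
  have hu : (0 : ℝ) < u := hu
  simp only
  rw [TG_eq hu]

/-- product of the two one-variable bounds -/
lemma cs2 {θ : ℝ} (hθ : 0 < θ) {h₁ h₂ : ℝ → ℝ≥0∞} (hh₁ : Measurable h₁) (hh₂ : Measurable h₂)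
    (h₁0 : ∀ u ≤ 0, h₁ u = 0) (h₂0 : ∀ u ≤ 0, h₂ u = 0) (R : ℕ) (m : ℤ) (v : ℝ) {a b : ℝ}
    (ha : 0 < a) (hb : 0 < b) :
    (∫⁻ u : ℝ, h₁ u * ‖TG θ R m (v, u * a)‖ₑ) * (∫⁻ u : ℝ, h₂ u * ‖TG θ R m (v, u * b)‖ₑ) ≤
      Nh θ h₁ * Nh θ h₂ * (ENNReal.ofReal ((a * b) ^ (-1 - θ)) * nrm θ (Tf θ v R m)) := by
  have h1 := cs1 (θ := θ) hh₁ h₁0 (measurable_TGv hθ R m v) ha
  have h2 := cs1 (θ := θ) hh₂ h₂0 (measurable_TGv hθ R m v) hb
  rw [nrm_TG] at h1 h2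
  refine (mul_le_mul' h1 h2).trans (le_of_eq ?_)
  have e1 : (ENNReal.ofReal (a ^ (-2 - 2 * θ)) * nrm θ (Tf θ v R m)) ^ (1 / 2 : ℝ) *
      (ENNReal.ofReal (b ^ (-2 - 2 * θ)) * nrm θ (Tf θ v R m)) ^ (1 / 2 : ℝ) =
      ENNReal.ofReal ((a * b) ^ (-1 - θ)) * nrm θ (Tf θ v R m) := by
    rw [ENNReal.mul_rpow_of_nonneg _ _ (by norm_num), ENNReal.mul_rpow_of_nonneg _ _ (by norm_num)]
    have e2 : nrm θ (Tf θ v R m) ^ (1 / 2 : ℝ) * nrm θ (Tf θ v R m) ^ (1 / 2 : ℝ) =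
        nrm θ (Tf θ v R m) := by
      rw [← ENNReal.rpow_add_of_nonneg _ _ (by norm_num) (by norm_num)]
      norm_num
    have e3 : ENNReal.ofReal (a ^ (-2 - 2 * θ)) ^ (1 / 2 : ℝ) *
        ENNReal.ofReal (b ^ (-2 - 2 * θ)) ^ (1 / 2 : ℝ) = ENNReal.ofReal ((a * b) ^ (-1 - θ)) := by
      rw [ENNReal.ofReal_rpow_of_nonneg (by positivity) (by norm_num),
        ENNReal.ofReal_rpow_of_nonneg (by positivity) (by norm_num), ← Real.rpow_mul ha.le,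
        ← Real.rpow_mul hb.le, ← ENNReal.ofReal_mul (by positivity), ← Real.mul_rpow ha.le hb.le]
      congr 2
      ring
    calc _ = (ENNReal.ofReal (a ^ (-2 - 2 * θ)) ^ (1 / 2 : ℝ) *
        ENNReal.ofReal (b ^ (-2 - 2 * θ)) ^ (1 / 2 : ℝ)) *
        (nrm θ (Tf θ v R m) ^ (1 / 2 : ℝ) * nrm θ (Tf θ v R m) ^ (1 / 2 : ℝ)) := by ring
      _ = _ := by rw [e2, e3]
  calc _ = Nh θ h₁ * Nh θ h₂ *
        ((ENNReal.ofReal (a ^ (-2 - 2 * θ)) * nrm θ (Tf θ v R m)) ^ (1 / 2 : ℝ) *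
      (ENNReal.ofReal (b ^ (-2 - 2 * θ)) * nrm θ (Tf θ v R m)) ^ (1 / 2 : ℝ)) := by ring
    _ = _ := by rw [e1]

/-- the main computation for fixed `g`, `e` -/
lemma inner2 {θ : ℝ} (hθ : 0 < θ) {CF : ℝ} (hCF : 0 < CF)
    {CG : ℝ} (hCG : 0 < CG) {AC : ℕ} (r j₁ j₂ : ℕ) (ε : ℤ) (hr : 0 < r) (hj₂ : 0 < j₂)
    (hF : ∀ v : ℝ, nrm θ (Bf θ v (ε * j₁)) ≤
      ENNReal.ofReal (CF * (1 / θ) ^ 2 * Real.exp (2 * π * |v|)) * (Jm j₁ + 1))
    (hG : ∀ v : ℝ, ∀ R : ℕ, 0 < R → nrm θ (Tf θ v R (ε * j₁)) ≤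
      ENNReal.ofReal (CG * (1 / θ) ^ AC * dv R ^ AC) * nrm θ (Bf θ v (ε * j₁)))
    {M : ℝ} (hv : ∫⁻ v : ℝ, ENNReal.ofReal (Real.exp (-π * |v|)) ≤ ENNReal.ofReal M)
    {g e : ℕ} (hg : 0 < g) (he : 0 < e) {ρ₁ ρ₂ : ℝ} (hρ₁ : 0 < ρ₁) (hρ₂ : 0 < ρ₂)
    {h₁ h₂ : ℝ → ℝ≥0∞} (hh₁ : Measurable h₁) (hh₂ : Measurable h₂)
    (h₁0 : ∀ u ≤ 0, h₁ u = 0) (h₂0 : ∀ u ≤ 0, h₂ u = 0) :
    ∫⁻ v : ℝ, ENNReal.ofReal (Real.exp (-3 * π * |v|)) *
        ((∫⁻ u : ℝ, h₁ u * ‖TG θ (e * g * r) (ε * ((j₁ * j₂ ^ 2 : ℕ) : ℤ)) (v, u * (ρ₁ * (g * e)))‖ₑ) *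
          (∫⁻ u : ℝ, h₂ u * ‖TG θ (e * g * r) (ε * ((j₁ * j₂ ^ 2 : ℕ) : ℤ)) (v, u * (ρ₂ * (g * e)))‖ₑ)) ≤
      ENNReal.ofReal ((M * CF * CG * (1 / θ) ^ (AC + 2) * dv r ^ AC * dv j₂ ^ AC *
        (ρ₁ * ρ₂) ^ (-1 - θ)) *
        (dv g ^ AC * dv e ^ AC * ((g : ℝ) * e) ^ (-2 - 2 * θ))) * (Jm j₁ + 1) *
        (Nh θ h₁ * Nh θ h₂) := by
  have hg' : (0 : ℝ) < g := by exact_mod_cast hg
  have he' : (0 : ℝ) < e := by exact_mod_cast he
  have hdr := P004.H3.dv_nonneg r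
  have hdj := P004.H3.dv_nonneg j₂
  have hdg := P004.H3.dv_nonneg g
  have hde := P004.H3.dv_nonneg e
  set D : ℝ := CF * CG * (1 / θ) ^ (AC + 2) * dv r ^ AC * dv j₂ ^ AC * (ρ₁ * ρ₂) ^ (-1 - θ) *
        (dv g ^ AC * dv e ^ AC * ((g : ℝ) * e) ^ (-2 - 2 * θ)) with hD
  have hD0 : 0 ≤ D := by positivity
  have e2 : ∀ v : ℝ, ENNReal.ofReal (Real.exp (-3 * π * |v|)) *
        ((∫⁻ u : ℝ, h₁ u * ‖TG θ (e * g * r) (ε * ((j₁ * j₂ ^ 2 : ℕ) : ℤ)) (v, u * (ρ₁ * (g * e)))‖ₑ) *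
          (∫⁻ u : ℝ, h₂ u * ‖TG θ (e * g * r) (ε * ((j₁ * j₂ ^ 2 : ℕ) : ℤ)) (v, u * (ρ₂ * (g * e)))‖ₑ)) ≤
      (Nh θ h₁ * Nh θ h₂ * ENNReal.ofReal D * (Jm j₁ + 1)) *
        ENNReal.ofReal (Real.exp (-π * |v|)) := by
    intro v
    have hc := cs2 hθ hh₁ hh₂ h₁0 h₂0 (e * g * r) (ε * ((j₁ * j₂ ^ 2 : ℕ) : ℤ)) v
      (a := ρ₁ * (g * e)) (b := ρ₂ * (g * e)) (by positivity) (by positivity)
    have hT : nrm θ (Tf θ v (e * g * r) (ε * ((j₁ * j₂ ^ 2 : ℕ) : ℤ))) =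
        nrm θ (Tf θ v (e * g * r * j₂) (ε * j₁)) := by
      congr 1
      funext u
      exact Tf_sq θ v _ _ _ _ u
    rw [hT] at hc
    have hR : 0 < e * g * r * j₂ := by positivity
    have hd : dv (e * g * r * j₂) ^ AC ≤ dv r ^ AC * dv j₂ ^ AC * (dv g ^ AC * dv e ^ AC) := by
      have : dv (e * g * r * j₂) ≤ dv r * dv j₂ * (dv g * dv e) := by
        calc dv (e * g * r * j₂) ≤ dv (e * g * r) * dv j₂ := P004.H3.dv_mul_le _ _
          _ ≤ dv (e * g) * dv r * dv j₂ := by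
            gcongr
            exact P004.H3.dv_mul_le _ _
          _ ≤ dv e * dv g * dv r * dv j₂ := by
            gcongr
            exact P004.H3.dv_mul_le _ _
          _ = dv r * dv j₂ * (dv g * dv e) := by ring
      calc dv (e * g * r * j₂) ^ AC ≤ (dv r * dv j₂ * (dv g * dv e)) ^ AC := by
            gcongr
            exact P004.H3.dv_nonneg _
        _ = _ := by rw [mul_pow, mul_pow, mul_pow]
    have hn : nrm θ (Tf θ v (e * g * r * j₂) (ε * j₁)) ≤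
        ENNReal.ofReal ((CG * (1 / θ) ^ AC * (dv r ^ AC * dv j₂ ^ AC * (dv g ^ AC * dv e ^ AC))) *
          (CF * (1 / θ) ^ 2 * Real.exp (2 * π * |v|))) * (Jm j₁ + 1) := by
      refine (hG v _ hR).trans ?_
      refine (mul_le_mul' le_rfl (hF v)).trans ?_
      rw [← mul_assoc, ← ENNReal.ofReal_mul (by have := P004.H3.dv_nonneg (e * g * r * j₂); positivity)]
      refine mul_le_mul' (ENNReal.ofReal_le_ofReal ?_) le_rfl
      gcongr
    have hab : (ρ₁ * (g * e) * (ρ₂ * (g * e))) ^ (-1 - θ) =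
        (ρ₁ * ρ₂) ^ (-1 - θ) * ((g : ℝ) * e) ^ (-2 - 2 * θ) := by
      have h1 : ρ₁ * (g * e) * (ρ₂ * (g * e)) = (ρ₁ * ρ₂) * (((g : ℝ) * e) ^ (2 : ℝ)) := by
        rw [Real.rpow_two]; ring
      rw [h1, Real.mul_rpow (by positivity) (by positivity), ← Real.rpow_mul (by positivity)]
      congr 2
      ring
    calc _ ≤ ENNReal.ofReal (Real.exp (-3 * π * |v|)) * (Nh θ h₁ * Nh θ h₂ *
          (ENNReal.ofReal ((ρ₁ * (g * e) * (ρ₂ * (g * e))) ^ (-1 - θ)) *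
          (ENNReal.ofReal ((CG * (1 / θ) ^ AC * (dv r ^ AC * dv j₂ ^ AC * (dv g ^ AC * dv e ^ AC))) *
          (CF * (1 / θ) ^ 2 * Real.exp (2 * π * |v|))) * (Jm j₁ + 1)))) :=
          mul_le_mul' le_rfl (hc.trans (mul_le_mul' le_rfl (mul_le_mul' le_rfl hn)))
      _ = Nh θ h₁ * Nh θ h₂ * (Jm j₁ + 1) * (ENNReal.ofReal (Real.exp (-3 * π * |v|)) *
          (ENNReal.ofReal ((ρ₁ * (g * e) * (ρ₂ * (g * e))) ^ (-1 - θ)) *
          ENNReal.ofReal ((CG * (1 / θ) ^ AC * (dv r ^ AC * dv j₂ ^ AC * (dv g ^ AC * dv e ^ AC))) *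
          (CF * (1 / θ) ^ 2 * Real.exp (2 * π * |v|))))) := by ring
      _ = Nh θ h₁ * Nh θ h₂ * (Jm j₁ + 1) * (ENNReal.ofReal D * ENNReal.ofReal (Real.exp (-π * |v|))) := by
          congr 1
          rw [← ENNReal.ofReal_mul (by positivity), ← ENNReal.ofReal_mul (by positivity),
            ← ENNReal.ofReal_mul hD0]
          congr 1
          have hexp : Real.exp (-3 * π * |v|) * Real.exp (2 * π * |v|) = Real.exp (-π * |v|) := by
            rw [← Real.exp_add]; congr 1; ring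
          rw [hab, hD, ← hexp]
          ring
      _ = _ := by ring
  refine (lintegral_mono e2).trans ?_
  have hne : Measurable fun v : ℝ => ENNReal.ofReal (Real.exp (-π * |v|)) := by
    fun_prop
  rw [lintegral_const_mul _ hne]
  calc Nh θ h₁ * Nh θ h₂ * ENNReal.ofReal D * (Jm j₁ + 1) *
        ∫⁻ v : ℝ, ENNReal.ofReal (Real.exp (-π * |v|))
      ≤ Nh θ h₁ * Nh θ h₂ * ENNReal.ofReal D * (Jm j₁ + 1) * ENNReal.ofReal M := by gcongr
    _ = (ENNReal.ofReal D * ENNReal.ofReal M) * (Jm j₁ + 1) * (Nh θ h₁ * Nh θ h₂) := by ring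
    _ = _ := by
      rw [← ENNReal.ofReal_mul hD0]
      congr 3
      rw [hD]
      ring

/-- the bound for one `j` -/
theorem AGW (hSep2 : StSep2) (hConv : StConv) (hFrac : StFrac) (hDiv : StDiv) :
    ∃ C : ℝ, 0 < C ∧ ∃ A : ℕ, ∀ θ : ℝ, 0 < θ → θ ≤ 1 / 8 → ∀ (H ρ₁ ρ₂ : ℝ) (r j j₁ j₂ : ℕ) (ε : ℤ),
      ε.natAbs = 1 → 0 < H → 0 < ρ₁ → 0 < ρ₂ → 0 < r → 0 < j → Squarefree j₁ → 0 < j₂ →
      ∀ h₁ h₂ : ℝ → ℝ≥0∞, Measurable h₁ → Measurable h₂ → (∀ u ≤ 0, h₁ u = 0) →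
      (∀ u ≤ 0, h₂ u = 0) →
      ∫⁻ p : ℝ × ℝ, h₁ p.1 * h₂ p.2 *
        ‖AG H r j (ε * ((j₁ * j₂ ^ 2 : ℕ) : ℤ)) (ρ₁ * p.1) (ρ₂ * p.2)‖ₑ ≤
      ENNReal.ofReal (C * (1 / θ) ^ A * dv r ^ A * dv j₂ ^ A *
        (j * H) ^ (-1 / 2 + θ) * (ρ₁ * ρ₂) ^ (-1 - θ)) * (Jm j₁ + 1) *
        (Nh θ h₁ * Nh θ h₂) := by
  obtain ⟨CS, hCS, hS⟩ := hSep2
  obtain ⟨CG, hCG, AC, hG⟩ := hConv
  obtain ⟨CF, hCF, hF⟩ := hFrac
  obtain ⟨M, hM, hv⟩ := P004.H3.vint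
  obtain ⟨C1, hC1, A1, h1⟩ := hDiv.1 (3 + AC)
  obtain ⟨C2, hC2, A2, h2⟩ := hDiv.1 (2 + AC)
  refine ⟨CS * M * CF * CG * C1 * C2, by positivity, AC + 2 + A1 + A2, ?_⟩
  intro θ hθ hθ8 H ρ₁ ρ₂ r j j₁ j₂ ε hε hH hρ₁ hρ₂ hr hj0 hj₁ hj₂ h₁ h₂ hh₁ hh₂ h₁0 h₂0
  have hj₁0 : 0 < j₁ := Nat.pos_of_ne_zero hj₁.ne_zero
  have hk0 : ε * (j₁ : ℤ) ≠ 0 := by
    have : ε ≠ 0 := by rintro rfl; simp at hε
    exact mul_ne_zero this (by exact_mod_cast hj₁0.ne')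
  set K : ℤ := ε * ((j₁ * j₂ ^ 2 : ℕ) : ℤ) with hK
  have hj0' : (0 : ℝ) < j := by exact_mod_cast hj0
  set B : ℝ := M * CF * CG * (1 / θ) ^ (AC + 2) * dv r ^ AC * dv j₂ ^ AC *
    (ρ₁ * ρ₂) ^ (-1 - θ) with hB
  have hdr := P004.H3.one_le_dv hr.ne'
  have hdj := P004.H3.one_le_dv hj₂.ne'
  have hB0 : 0 ≤ B := by positivity
  set w : ℕ → ℕ → ℝ≥0∞ := fun g e =>
    ENNReal.ofReal (g * dv g ^ 3 * (dv e ^ 2 * (e : ℝ) ^ (1 - 2 * θ))) with hw
  set T : ℕ → ℕ → ℝ → ℝ × ℝ → ℝ≥0∞ := fun g e v p =>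
    ENNReal.ofReal (Real.exp (-3 * π * |v|)) *
      ((h₁ p.1 * ‖TG θ (e * g * r) K (v, p.1 * (ρ₁ * (g * e)))‖ₑ) *
       (h₂ p.2 * ‖TG θ (e * g * r) K (v, p.2 * (ρ₂ * (g * e)))‖ₑ)) with hT
  have hmT : ∀ g e : ℕ, Measurable (fun x : (ℝ × ℝ) × ℝ => T g e x.2 x.1) := by
    intro g e
    simp only [hT]
    have m1 : Measurable fun x : (ℝ × ℝ) × ℝ =>
        TG θ (e * g * r) K (x.2, x.1.1 * (ρ₁ * (g * e))) := by
      have h1 := measurable_TG hθ (e * g * r) K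
      exact h1.comp (by fun_prop)
    have m2 : Measurable fun x : (ℝ × ℝ) × ℝ =>
        TG θ (e * g * r) K (x.2, x.1.2 * (ρ₂ * (g * e))) := by
      have h1 := measurable_TG hθ (e * g * r) K
      exact h1.comp (by fun_prop)
    have m3 : Measurable fun x : (ℝ × ℝ) × ℝ => h₁ x.1.1 := hh₁.comp (by fun_prop)
    have m4 : Measurable fun x : (ℝ × ℝ) × ℝ => h₂ x.1.2 := hh₂.comp (by fun_prop)
    have m5 : Measurable fun x : (ℝ × ℝ) × ℝ => ENNReal.ofReal (Real.exp (-3 * π * |x.2|)) := by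
      fun_prop
    exact m5.mul ((m3.mul m1.enorm).mul (m4.mul m2.enorm))
  set I : ℕ → ℕ → ℝ × ℝ → ℝ≥0∞ := fun g e p => ∫⁻ v : ℝ, T g e v p with hI
  have hmI : ∀ g e : ℕ, Measurable (I g e) := fun g e => (hmT g e).lintegral_prod_right'
  have step1 : ∀ p : ℝ × ℝ, h₁ p.1 * h₂ p.2 * ‖AG H r j K (ρ₁ * p.1) (ρ₂ * p.2)‖ₑ ≤
      ENNReal.ofReal (CS * (j * H) ^ (-1 / 2 + θ)) * ∑' g : ℕ, ∑' e : ℕ, w g e * I g e p := by
    intro p
    by_cases hp1 : p.1 ≤ 0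
    · rw [h₁0 _ hp1]; simp
    by_cases hp2 : p.2 ≤ 0
    · rw [h₂0 _ hp2]; simp
    rw [not_le] at hp1 hp2
    rw [Real.enorm_eq_ofReal_abs]
    refine (mul_le_mul' le_rfl (hS θ hθ hθ8 H r j K (ρ₁ * p.1) (ρ₂ * p.2) hH hr hj0
      (by positivity) (by positivity))).trans (le_of_eq ?_)
    rw [← mul_assoc, mul_comm (h₁ p.1 * h₂ p.2), mul_assoc]
    congr 1
    rw [← ENNReal.tsum_mul_left]
    refine tsum_congr fun g => ?_
    rw [← ENNReal.tsum_mul_left]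
    refine tsum_congr fun e => ?_
    rw [← mul_assoc, mul_comm (h₁ p.1 * h₂ p.2), mul_assoc]
    by_cases hge : 0 < g ∧ 0 < e
    · have hg' : (0 : ℝ) < g := by exact_mod_cast hge.1
      have he' : (0 : ℝ) < e := by exact_mod_cast hge.2
      simp only [hI, hw]
      congr 1
      rw [← lintegral_const_mul]
      · refine lintegral_congr fun v => ?_
        simp only [hT]
        rw [TG_eq (by positivity), TG_eq (by positivity), ENNReal.ofReal_mul (by positivity),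
          ENNReal.ofReal_mul (norm_nonneg _), ofReal_norm, ofReal_norm]
        rw [show ρ₁ * p.1 * g * e = p.1 * (ρ₁ * (g * e)) by ring,
          show ρ₂ * p.2 * g * e = p.2 * (ρ₂ * (g * e)) by ring]
        ring
      · have m1 : Measurable fun v : ℝ =>
            ‖Tf θ v (e * g * r) K (ρ₁ * p.1 * g * e)‖ := by
          have h1 := measurable_TG hθ (e * g * r) K
          have h2 : Measurable fun v : ℝ =>
            ‖TG θ (e * g * r) K (v, ρ₁ * p.1 * g * e)‖ := (h1.comp (by fun_prop)).norm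
          have h3 : (fun v : ℝ => ‖Tf θ v (e * g * r) K (ρ₁ * p.1 * g * e)‖) =
              fun v : ℝ => ‖TG θ (e * g * r) K (v, ρ₁ * p.1 * g * e)‖ := by
            funext v
            rw [TG_eq (by positivity)]
          rw [h3]
          exact h2
        have m2 : Measurable fun v : ℝ =>
            ‖Tf θ v (e * g * r) K (ρ₂ * p.2 * g * e)‖ := by
          have h1 := measurable_TG hθ (e * g * r) K
          have h2 : Measurable fun v : ℝ =>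
            ‖TG θ (e * g * r) K (v, ρ₂ * p.2 * g * e)‖ := (h1.comp (by fun_prop)).norm
          have h3 : (fun v : ℝ => ‖Tf θ v (e * g * r) K (ρ₂ * p.2 * g * e)‖) =
              fun v : ℝ => ‖TG θ (e * g * r) K (v, ρ₂ * p.2 * g * e)‖ := by
            funext v
            rw [TG_eq (by positivity)]
          rw [h3]
          exact h2
        refine Measurable.ennreal_ofReal ?_
        refine Measurable.mul (by fun_prop) (m1.mul m2)
    · have : w g e = 0 := by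
        simp only [hw]
        rw [not_and_or, Nat.pos_iff_ne_zero, Nat.pos_iff_ne_zero, not_not, not_not] at hge
        rcases hge with rfl | rfl
        · simp
        · simp [P004.H3.dv_zero]
      rw [this]
      simp only [hw] at this
      rw [this]; simp
  have step2 : ∀ g e : ℕ, ∫⁻ p : ℝ × ℝ, I g e p =
      ∫⁻ v : ℝ, ENNReal.ofReal (Real.exp (-3 * π * |v|)) *
        ((∫⁻ u : ℝ, h₁ u * ‖TG θ (e * g * r) K (v, u * (ρ₁ * (g * e)))‖ₑ) *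
          (∫⁻ u : ℝ, h₂ u * ‖TG θ (e * g * r) K (v, u * (ρ₂ * (g * e)))‖ₑ)) := by
    intro g e
    simp only [hI]
    rw [lintegral_lintegral_swap (hmT g e).aemeasurable]
    refine lintegral_congr fun v => ?_
    simp only [hT]
    have m1 : Measurable fun u : ℝ => h₁ u * ‖TG θ (e * g * r) K (v, u * (ρ₁ * (g * e)))‖ₑ := by
      have h1 := measurable_TG hθ (e * g * r) K
      have h2 : Measurable fun u : ℝ => TG θ (e * g * r) K (v, u * (ρ₁ * (g * e))) :=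
        h1.comp (by fun_prop)
      exact hh₁.mul h2.enorm
    have m2 : Measurable fun u : ℝ => h₂ u * ‖TG θ (e * g * r) K (v, u * (ρ₂ * (g * e)))‖ₑ := by
      have h1 := measurable_TG hθ (e * g * r) K
      have h2 : Measurable fun u : ℝ => TG θ (e * g * r) K (v, u * (ρ₂ * (g * e))) :=
        h1.comp (by fun_prop)
      exact hh₂.mul h2.enorm
    rw [lintegral_const_mul' _ _ ENNReal.ofReal_ne_top]
    congr 1
    rw [Measure.volume_eq_prod]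
    exact lintegral_prod_mul m1.aemeasurable m2.aemeasurable
  calc ∫⁻ p : ℝ × ℝ, h₁ p.1 * h₂ p.2 * ‖AG H r j K (ρ₁ * p.1) (ρ₂ * p.2)‖ₑ
      ≤ ∫⁻ p : ℝ × ℝ, ENNReal.ofReal (CS * (j * H) ^ (-1 / 2 + θ)) * ∑' g : ℕ, ∑' e : ℕ,
        w g e * I g e p := lintegral_mono step1
    _ = ENNReal.ofReal (CS * (j * H) ^ (-1 / 2 + θ)) * ∑' g : ℕ, ∑' e : ℕ,
        w g e * ∫⁻ p : ℝ × ℝ, I g e p := by
        rw [lintegral_const_mul' _ _ ENNReal.ofReal_ne_top]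
        congr 1
        rw [lintegral_tsum]
        · refine tsum_congr fun g => ?_
          rw [lintegral_tsum]
          · refine tsum_congr fun e => ?_
            rw [lintegral_const_mul' _ _ ENNReal.ofReal_ne_top]
          · intro e
            exact ((hmI g e).const_mul _).aemeasurable
        · intro g
          exact (Measurable.tsum fun e => (hmI g e).const_mul _).aemeasurable
    _ ≤ ENNReal.ofReal (CS * (j * H) ^ (-1 / 2 + θ)) * ∑' g : ℕ, ∑' e : ℕ,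
        (ENNReal.ofReal B * (Jm j₁ + 1) * (Nh θ h₁ * Nh θ h₂)) *
          (ENNReal.ofReal (dv g ^ (3 + AC) * (g : ℝ) ^ (-1 - θ)) *
          ENNReal.ofReal (dv e ^ (2 + AC) * (e : ℝ) ^ (-1 - θ))) := by
        refine mul_le_mul_right (ENNReal.tsum_le_tsum fun g => ENNReal.tsum_le_tsum fun e => ?_) _
        by_cases hge : 0 < g ∧ 0 < e
        · have hg' : (0 : ℝ) < g := by exact_mod_cast hge.1
          have he' : (0 : ℝ) < e := by exact_mod_cast hge.2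
          have hin := inner2 hθ hCF hCG (AC := AC) r j₁ j₂ ε hr hj₂
            (fun v => (hF θ hθ hθ8 v (ε * j₁) hk0).trans
              (mul_le_mul' le_rfl (add_le_add_left (Jz_le ε hε j₁) 1)))
            (fun v R hR => hG θ hθ hθ8 v (ε * j₁) R hR) hv hge.1 hge.2
            hρ₁ hρ₂ hh₁ hh₂ h₁0 h₂0
          rw [step2 g e]
          refine (mul_le_mul_right hin _).trans ?_
          rw [← hB]
          have hdg := P004.H3.dv_nonneg g
          have hde := P004.H3.dv_nonneg e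
          calc w g e * (ENNReal.ofReal (B * (dv g ^ AC * dv e ^ AC *
                ((g : ℝ) * e) ^ (-2 - 2 * θ))) * (Jm j₁ + 1) * (Nh θ h₁ * Nh θ h₂))
              = ENNReal.ofReal B * (Jm j₁ + 1) * (Nh θ h₁ * Nh θ h₂) * ENNReal.ofReal
                ((g * dv g ^ 3 * (dv e ^ 2 * (e : ℝ) ^ (1 - 2 * θ))) *
                (dv g ^ AC * dv e ^ AC * ((g : ℝ) * e) ^ (-2 - 2 * θ))) := by
                simp only [hw]
                rw [ENNReal.ofReal_mul hB0, ENNReal.ofReal_mul (p := g * dv g ^ 3 *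
                  (dv e ^ 2 * (e : ℝ) ^ (1 - 2 * θ))) (by positivity)]
                ring
            _ ≤ ENNReal.ofReal B * (Jm j₁ + 1) * (Nh θ h₁ * Nh θ h₂) * ENNReal.ofReal
                ((dv g ^ (3 + AC) * (g : ℝ) ^ (-1 - θ)) *
                  (dv e ^ (2 + AC) * (e : ℝ) ^ (-1 - θ))) := by
                exact mul_le_mul_right (ENNReal.ofReal_le_ofReal (P004.H3.weight_le hθ AC hge.1 hge.2)) _
            _ = _ := by rw [ENNReal.ofReal_mul (p := dv g ^ (3 + AC) * (g : ℝ) ^ (-1 - θ))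
                          (by positivity)]
        · have : w g e = 0 := by
            simp only [hw]
            rw [not_and_or, Nat.pos_iff_ne_zero, Nat.pos_iff_ne_zero, not_not, not_not] at hge
            rcases hge with rfl | rfl
            · simp
            · simp [P004.H3.dv_zero]
          rw [this]; simp
    _ = ENNReal.ofReal (CS * (j * H) ^ (-1 / 2 + θ)) * ((ENNReal.ofReal B * (Jm j₁ + 1) *
        (Nh θ h₁ * Nh θ h₂)) *
        ((∑' g : ℕ, ENNReal.ofReal (dv g ^ (3 + AC) * (g : ℝ) ^ (-1 - θ))) *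
          ∑' e : ℕ, ENNReal.ofReal (dv e ^ (2 + AC) * (e : ℝ) ^ (-1 - θ)))) := by
        congr 1
        rw [← ENNReal.tsum_mul_right, ← ENNReal.tsum_mul_left]
        refine tsum_congr fun g => ?_
        rw [← ENNReal.tsum_mul_left, ← ENNReal.tsum_mul_left]
    _ ≤ ENNReal.ofReal (CS * (j * H) ^ (-1 / 2 + θ)) * ((ENNReal.ofReal B * (Jm j₁ + 1) *
        (Nh θ h₁ * Nh θ h₂)) *
        (ENNReal.ofReal (C1 * (1 / θ) ^ A1) * ENNReal.ofReal (C2 * (1 / θ) ^ A2))) := by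
        gcongr
        · exact h1 θ hθ (by linarith)
        · exact h2 θ hθ (by linarith)
    _ = ENNReal.ofReal ((CS * (j * H) ^ (-1 / 2 + θ)) * (B * ((C1 * (1 / θ) ^ A1) *
        (C2 * (1 / θ) ^ A2)))) * (Jm j₁ + 1) * (Nh θ h₁ * Nh θ h₂) := by
        rw [ENNReal.ofReal_mul (p := CS * (j * H) ^ (-1 / 2 + θ)) (by positivity),
          ENNReal.ofReal_mul (p := B) hB0,
          ENNReal.ofReal_mul (p := C1 * (1 / θ) ^ A1) (by positivity)]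
        ring
    _ ≤ _ := by
        gcongr ENNReal.ofReal ?_ * _ * _
        have hθ1 : 1 ≤ 1 / θ := by rw [le_div_iff₀ hθ]; linarith
        calc (CS * (j * H) ^ (-1 / 2 + θ)) * (B * ((C1 * (1 / θ) ^ A1) * (C2 * (1 / θ) ^ A2)))
            = CS * M * CF * CG * C1 * C2 * (1 / θ) ^ (AC + 2 + A1 + A2) * dv r ^ AC * dv j₂ ^ AC *
              (j * H) ^ (-1 / 2 + θ) * (ρ₁ * ρ₂) ^ (-1 - θ) := by rw [hB]; ring
          _ ≤ CS * M * CF * CG * C1 * C2 * (1 / θ) ^ (AC + 2 + A1 + A2) *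
              dv r ^ (AC + 2 + A1 + A2) * dv j₂ ^ (AC + 2 + A1 + A2) *
              (j * H) ^ (-1 / 2 + θ) * (ρ₁ * ρ₂) ^ (-1 - θ) := by
              gcongr <;> omega
          _ = _ := by rfl

end Tw

end P004G
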