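import Vale.Agent.P004G.H253.Tw7
import Vale.Agent.P004.H253.Tw8

/-!
# P004G, module D (twisted bilinear estimate), part 8: assembly
-/

open Real MeasureTheory Set Filter Topology
open scoped ENNReal NumberTheorySymbols ArithmeticFunction.Moebius

namespace P004G

variable [Crv]

namespace Tw

open P004 P004.Tw

/-- the bilinear bound with two different cut-offs -/
def StTwL2 : Prop :=
  ∃ C : ℝ, 1 ≤ C ∧ ∃ A : ℕ, ∀ (L H N₁ N₂ : ℝ) (t : ℕ), 1 ≤ L → 1 ≤ H → Real.log H ≤ L →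
    1 ≤ N₁ → 1 ≤ N₂ → Real.log N₁ ≤ L → Real.log N₂ ≤ L → Good t → Real.log t ≤ L →
    ∀ h₁ h₂ : ℝ → ℝ≥0∞, Measurable h₁ → Measurable h₂ →
      (∀ u : ℝ, u < 1 / (3 * N₁) → h₁ u = 0) → (∀ u : ℝ, u < 1 / (3 * N₂) → h₂ u = 0) →
      ∫⁻ p : ℝ × ℝ, h₁ p.1 * h₂ p.2 * ‖Toff H t p.1 p.2‖ₑ ≤
        ENNReal.ofReal (C * L ^ A * √(t : ℝ) * dv t ^ A * √(N₁ * N₂)) *
          (Nh (1 / (8 * L)) h₁ * Nh (1 / (8 * L)) h₂)

/-- **Module D**: the bilinear bound. -/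
theorem pfTwL2 (hC : StCoef) (hP : StPoisG) (hK : StKer) (hSep2 : StSep2) (hConv : StConv)
    (hFrac : StFrac) (hDiv : StDiv) (hDec : StDecII) (hWts : StWts) (hJs : StJs) : StTwL2 := by
  obtain ⟨C₁, hC₁, A₁, hS⟩ := SjW hC hK hSep2 hConv hFrac hDiv hDec hWts
  obtain ⟨C₂, hC₂, B, hJ⟩ := hJs A₁
  obtain ⟨C₃, hC₃, hT⟩ := tail_bound hC hK
  set Q : ℝ := 32 * (C₁ * 8 ^ A₁) * C₂ * 64 ^ 9 + 32 * C₃ * 6561 with hQ
  have hQ1 : 1 ≤ Q := by
    have h1 : (1 : ℝ) ≤ 8 ^ A₁ := one_le_pow₀ (by norm_num)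
    have h2 : 0 ≤ 32 * (C₁ * 8 ^ A₁) * C₂ * 64 ^ 9 := by positivity
    nlinarith
  refine ⟨Q, hQ1, A₁ + B + 9, ?_⟩
  intro L H N₁ N₂ t hL hH hHL hN₁ hN₂ hN₁L hN₂L hgood htL h₁ h₂ hh₁ hh₂ h₁0 h₂0
  have ht0 : t ≠ 0 := hgood.1
  have ht1 : (1 : ℝ) ≤ t := by exact_mod_cast Nat.pos_of_ne_zero ht0
  have ht' : (0 : ℝ) < t := by linarith
  have hN₁0 : 0 < N₁ := by linarith
  have hN₂0 : 0 < N₂ := by linarith
  have hH0 : 0 < H := by linarith
  have hL0 : 0 < L := by linarith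
  have ha₁ : 0 < 1 / (3 * N₁) := by positivity
  have ha₂ : 0 < 1 / (3 * N₂) := by positivity
  have z₁ : ∀ u ≤ 0, h₁ u = 0 := fun u hu => h₁0 u (lt_of_le_of_lt hu ha₁)
  have z₂ : ∀ u ≤ 0, h₂ u = 0 := fun u hu => h₂0 u (lt_of_le_of_lt hu ha₂)
  set θ : ℝ := 1 / (8 * L) with hθdef
  have hθ : 0 < θ := by positivity
  have hθ8 : θ ≤ 1 / 8 := by
    rw [hθdef]
    apply one_div_le_one_div_of_le (by norm_num)
    linarith
  have hθ1 : 1 / θ = 8 * L := by rw [hθdef, one_div_one_div]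
  set Λ : ℝ := 64 * L with hΛ
  have hΛ1 : 1 ≤ Λ := by linarith
  set M : ℝ := t * (N₁ * N₂) * Λ ^ 17 with hM
  have hM0 : 0 < M := by positivity
  set Z : ℕ := ⌊M / H⌋₊ with hZ
  have hlogM : Real.log M ≤ 1000 * L := by
    have h64 : Real.log 64 ≤ 6 := by
      rw [show (64 : ℝ) = 2 ^ 6 by norm_num, Real.log_pow]
      have := Real.log_two_lt_d9
      push_cast
      linarith
    have hlogL : Real.log L ≤ L := (Real.log_le_sub_one_of_pos hL0).trans (by linarith)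
    rw [hM, Real.log_mul (by positivity) (by positivity), Real.log_mul (by positivity)
      (by positivity), Real.log_mul (by positivity) (by positivity), Real.log_pow, hΛ,
      Real.log_mul (by norm_num) hL0.ne']
    push_cast
    nlinarith
  set D : ℝ≥0∞ := 2 * (ENNReal.ofReal (C₁ * (1 / θ) ^ A₁ * dv t ^ A₁) *
    (Nh θ h₁ * Nh θ h₂)) with hD
  set W : ℕ → ℝ≥0∞ := fun j => ∫⁻ p : ℝ × ℝ, (h₁ p.1 * h₂ p.2 * ‖Sj 1 H t j p.1 p.2‖ₑ +
    h₁ p.1 * h₂ p.2 * ‖Sj (-1) H t j p.1 p.2‖ₑ) with hW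
  have m2 : Measurable fun p : ℝ × ℝ => h₁ p.1 := hh₁.comp measurable_fst
  have m3 : Measurable fun p : ℝ × ℝ => h₂ p.2 := hh₂.comp measurable_snd
  have hmain : ∑ j ∈ Finset.Icc 1 Z, W j ≤ D * ENNReal.ofReal (C₂ * L ^ B * √M / H) := by
    refine hJ L H M hL hH hM0 hlogM W D ?_
    intro j₁ j₂ hj₁ hj₂
    have b1 := hS θ hθ hθ8 1 H t j₁ j₂ (by norm_num) hH0 ht0 hj₁ hj₂ h₁ h₂ hh₁ hh₂ z₁ z₂
    have b2 := hS θ hθ hθ8 (-1) H t j₁ j₂ (by norm_num) hH0 ht0 hj₁ hj₂ h₁ h₂ hh₁ hh₂ z₁ z₂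
    simp only [hW]
    have mS : Measurable fun p : ℝ × ℝ => h₁ p.1 * h₂ p.2 *
        ‖Sj 1 H t (j₁ * j₂ ^ 2) p.1 p.2‖ₑ :=
      (m2.mul m3).mul (measurable_Sj 1 H t (j₁ * j₂ ^ 2)).enorm
    rw [lintegral_add_left mS]
    refine (add_le_add b1 b2).trans (le_of_eq ?_)
    rw [hD, hθdef]
    ring
  have hZH : t * (N₁ * N₂) * Λ ^ 17 ≤ (Z + 1) * H := by
    have h1 := Nat.lt_floor_add_one (M / H)
    rw [← hM]
    rw [div_lt_iff₀ hH0] at h1
    exact h1.le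
  set F : ℝ := C₃ * Real.exp (-Λ / 4) * (t ^ 3 * (N₁ * N₂) ^ 2) with hF
  have hF0 : 0 ≤ F := by positivity
  have htail : ∫⁻ p : ℝ × ℝ, h₁ p.1 * h₂ p.2 *
      ENNReal.ofReal (F * ((1 / p.1 ^ 5) * (1 / p.2 ^ 5))) ≤
      ENNReal.ofReal (F * ((3 * N₁) ^ 4 * (3 * N₂) ^ 4)) * (Nh θ h₁ * Nh θ h₂) := by
    have e1 : ∀ p : ℝ × ℝ, h₁ p.1 * h₂ p.2 *
        ENNReal.ofReal (F * ((1 / p.1 ^ 5) * (1 / p.2 ^ 5))) = ENNReal.ofReal F *
        ((h₁ p.1 * ENNReal.ofReal (1 / p.1 ^ 5)) * (h₂ p.2 * ENNReal.ofReal (1 / p.2 ^ 5))) := by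
      intro p
      by_cases hp : p.1 ≤ 0
      · rw [z₁ _ hp]; simp
      rw [not_le] at hp
      rw [ENNReal.ofReal_mul (p := F) hF0, ENNReal.ofReal_mul (p := 1 / p.1 ^ 5) (by positivity)]
      ring
    rw [lintegral_congr e1, lintegral_const_mul' _ _ ENNReal.ofReal_ne_top,
      Measure.volume_eq_prod]
    have q1 : Measurable fun u : ℝ => h₁ u * ENNReal.ofReal (1 / u ^ 5) :=
      hh₁.mul (Measurable.ennreal_ofReal (measurable_const.div (measurable_id.pow_const 5)))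
    have q2 : Measurable fun u : ℝ => h₂ u * ENNReal.ofReal (1 / u ^ 5) :=
      hh₂.mul (Measurable.ennreal_ofReal (measurable_const.div (measurable_id.pow_const 5)))
    rw [lintegral_prod_mul (f := fun u : ℝ => h₁ u * ENNReal.ofReal (1 / u ^ 5))
      (g := fun u : ℝ => h₂ u * ENNReal.ofReal (1 / u ^ 5)) q1.aemeasurable q2.aemeasurable]
    have b1 := tail_one hθ hθ8 hN₁ hh₁ h₁0
    have b2 := tail_one hθ hθ8 hN₂ hh₂ h₂0
    calc ENNReal.ofReal F * ((∫⁻ u : ℝ, h₁ u * ENNReal.ofReal (1 / u ^ 5)) *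
          ∫⁻ u : ℝ, h₂ u * ENNReal.ofReal (1 / u ^ 5))
        ≤ ENNReal.ofReal F * ((Nh θ h₁ * ENNReal.ofReal ((3 * N₁) ^ 4)) *
          (Nh θ h₂ * ENNReal.ofReal ((3 * N₂) ^ 4))) := by gcongr
      _ = ENNReal.ofReal F * (ENNReal.ofReal ((3 * N₁) ^ 4) * ENNReal.ofReal ((3 * N₂) ^ 4)) *
          (Nh θ h₁ * Nh θ h₂) := by ring
      _ = _ := by rw [← ENNReal.ofReal_mul (by positivity), ← ENNReal.ofReal_mul hF0]
  have hpt : ∀ p : ℝ × ℝ, h₁ p.1 * h₂ p.2 * ‖Toff H t p.1 p.2‖ₑ ≤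
      ENNReal.ofReal (16 * H) * (∑ j ∈ Finset.range Z,
        (h₁ p.1 * h₂ p.2 * ‖Sj 1 H t (j + 1) p.1 p.2‖ₑ +
          h₁ p.1 * h₂ p.2 * ‖Sj (-1) H t (j + 1) p.1 p.2‖ₑ) +
        2 * (h₁ p.1 * h₂ p.2 * ENNReal.ofReal (F * ((1 / p.1 ^ 5) * (1 / p.2 ^ 5))))) := by
    intro p
    by_cases hp1 : p.1 < 1 / (3 * N₁)
    · rw [h₁0 _ hp1]; simp
    by_cases hp2 : p.2 < 1 / (3 * N₂)
    · rw [h₂0 _ hp2]; simp
    rw [not_lt] at hp1 hp2
    have hp1' : 0 < p.1 := lt_of_lt_of_le ha₁ hp1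
    have hp2' : 0 < p.2 := lt_of_lt_of_le ha₂ hp2
    rw [toff_split hC hP hK hH0 hgood Z hp1' hp2', enorm_mul]
    have e1 : ‖16 * H‖ₑ = ENNReal.ofReal (16 * H) := by
      rw [Real.enorm_eq_ofReal_abs, abs_of_nonneg (by positivity)]
    have e2 : ∀ ε : ℤ, ‖∑ j ∈ Finset.range Z, Sj ε H t (j + 1) p.1 p.2 + Tt ε H t Z p.1 p.2‖ₑ ≤
        ∑ j ∈ Finset.range Z, ‖Sj ε H t (j + 1) p.1 p.2‖ₑ +
          ENNReal.ofReal (F * ((1 / p.1 ^ 5) * (1 / p.2 ^ 5))) := fun ε => by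
      refine (enorm_add_le _ _).trans (add_le_add (enorm_sum_le _ _) ?_)
      rw [Real.enorm_eq_ofReal_abs]
      exact ENNReal.ofReal_le_ofReal (hT ε H Λ N₁ N₂ p.1 p.2 t Z hH hΛ1 hN₁ hN₂ ht0 hp1 hp2 hZH)
    rw [e1]
    calc h₁ p.1 * h₂ p.2 * (ENNReal.ofReal (16 * H) *
          ‖(∑ j ∈ Finset.range Z, Sj 1 H t (j + 1) p.1 p.2 + Tt 1 H t Z p.1 p.2) +
            (∑ j ∈ Finset.range Z, Sj (-1) H t (j + 1) p.1 p.2 + Tt (-1) H t Z p.1 p.2)‖ₑ)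
        ≤ h₁ p.1 * h₂ p.2 * (ENNReal.ofReal (16 * H) *
          ((∑ j ∈ Finset.range Z, ‖Sj 1 H t (j + 1) p.1 p.2‖ₑ +
          ENNReal.ofReal (F * ((1 / p.1 ^ 5) * (1 / p.2 ^ 5)))) +
          (∑ j ∈ Finset.range Z, ‖Sj (-1) H t (j + 1) p.1 p.2‖ₑ +
          ENNReal.ofReal (F * ((1 / p.1 ^ 5) * (1 / p.2 ^ 5)))))) := by
          refine mul_le_mul' le_rfl (mul_le_mul' le_rfl ?_)
          exact (enorm_add_le _ _).trans (add_le_add (e2 1) (e2 (-1)))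
      _ = _ := by
          rw [Finset.sum_add_distrib, ← Finset.mul_sum, ← Finset.mul_sum]
          ring
  have mW : ∀ j : ℕ, Measurable fun p : ℝ × ℝ =>
      (h₁ p.1 * h₂ p.2 * ‖Sj 1 H t (j + 1) p.1 p.2‖ₑ +
          h₁ p.1 * h₂ p.2 * ‖Sj (-1) H t (j + 1) p.1 p.2‖ₑ) := fun j =>
    ((m2.mul m3).mul (measurable_Sj 1 H t (j + 1)).enorm).add
      ((m2.mul m3).mul (measurable_Sj (-1) H t (j + 1)).enorm)
  calc ∫⁻ p : ℝ × ℝ, h₁ p.1 * h₂ p.2 * ‖Toff H t p.1 p.2‖ₑ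
      ≤ ∫⁻ p : ℝ × ℝ, ENNReal.ofReal (16 * H) * (∑ j ∈ Finset.range Z,
        (h₁ p.1 * h₂ p.2 * ‖Sj 1 H t (j + 1) p.1 p.2‖ₑ +
          h₁ p.1 * h₂ p.2 * ‖Sj (-1) H t (j + 1) p.1 p.2‖ₑ) +
        2 * (h₁ p.1 * h₂ p.2 * ENNReal.ofReal (F * ((1 / p.1 ^ 5) * (1 / p.2 ^ 5))))) :=
        lintegral_mono hpt
    _ = ENNReal.ofReal (16 * H) * (∑ j ∈ Finset.range Z, W (j + 1) +
        2 * ∫⁻ p : ℝ × ℝ, h₁ p.1 * h₂ p.2 *
          ENNReal.ofReal (F * ((1 / p.1 ^ 5) * (1 / p.2 ^ 5)))) := by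
        rw [lintegral_const_mul' _ _ ENNReal.ofReal_ne_top, lintegral_add_left,
          lintegral_finsetSum, lintegral_const_mul' _ _ (by norm_num)]
        · exact fun j _ => mW j
        · exact Finset.measurable_sum _ fun j _ => mW j
    _ ≤ ENNReal.ofReal (16 * H) * (D * ENNReal.ofReal (C₂ * L ^ B * √M / H) +
        2 * (ENNReal.ofReal (F * ((3 * N₁) ^ 4 * (3 * N₂) ^ 4)) * (Nh θ h₁ * Nh θ h₂))) := by
        refine mul_le_mul' le_rfl (add_le_add ?_ (mul_le_mul' le_rfl htail))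
        refine le_trans (le_of_eq ?_) hmain
        rw [Finset.range_eq_Ico, Finset.sum_Ico_add' (fun j => W j) 0 Z 1]
        refine Finset.sum_congr ?_ fun _ _ => rfl
        ext x
        simp only [Finset.mem_Ico, Finset.mem_Icc]
        omega
    _ = ENNReal.ofReal (32 * H * (C₁ * (1 / θ) ^ A₁ * dv t ^ A₁ * (C₂ * L ^ B * √M / H)) +
          32 * H * (F * ((3 * N₁) ^ 4 * (3 * N₂) ^ 4))) * (Nh θ h₁ * Nh θ h₂) := by
        have hdt := P004.Tw.one_le_dv ht0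
        have p1 : 0 ≤ C₁ * (1 / θ) ^ A₁ * dv t ^ A₁ := by positivity
        have p2 : 0 ≤ C₂ * L ^ B * √M / H := by positivity
        rw [ENNReal.ofReal_add (by positivity) (by positivity),
          ENNReal.ofReal_mul (p := 32 * H) (q := C₁ * (1 / θ) ^ A₁ * dv t ^ A₁ *
            (C₂ * L ^ B * √M / H)) (by positivity), ENNReal.ofReal_mul
            (p := C₁ * (1 / θ) ^ A₁ * dv t ^ A₁) p1,
          ENNReal.ofReal_mul (p := 32 * H) (q := F * ((3 * N₁) ^ 4 * (3 * N₂) ^ 4)) (by positivity),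
          hD]
        have h16 : ENNReal.ofReal (32 * H) = ENNReal.ofReal (16 * H) * 2 := by
          rw [show 32 * H = (16 * H) * 2 by ring, ENNReal.ofReal_mul (by positivity)]
          norm_num
        rw [h16]
        ring
    _ ≤ ENNReal.ofReal (Q * L ^ (A₁ + B + 9) * √(t : ℝ) * dv t ^ (A₁ + B + 9) *
          √(N₁ * N₂)) *
        (Nh θ h₁ * Nh θ h₂) := by
        refine mul_le_mul' (ENNReal.ofReal_le_ofReal ?_) le_rfl
        have hdt := P004.Tw.one_le_dv ht0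
        have hst : 1 ≤ √(t : ℝ) := Real.one_le_sqrt.2 ht1
        set S : ℝ := L ^ (A₁ + B + 9) * √(t : ℝ) * dv t ^ (A₁ + B + 9) * √(N₁ * N₂) with hS'
        have hS0 : 0 ≤ S := by positivity
        have i1 : 32 * H * (C₁ * (1 / θ) ^ A₁ * dv t ^ A₁ * (C₂ * L ^ B * √M / H)) ≤
            (32 * (C₁ * 8 ^ A₁) * C₂ * 64 ^ 9) * S := by
          have hsM : √M ≤ √(t : ℝ) * √(N₁ * N₂) * (64 ^ 9 * L ^ 9) := by
            rw [hM, Real.sqrt_mul (by positivity), Real.sqrt_mul (by positivity)]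
            have h1 : √(Λ ^ 17) ≤ Λ ^ 9 := by
              rw [Real.sqrt_le_left (by positivity), ← pow_mul]
              exact pow_le_pow_right₀ hΛ1 (by norm_num)
            have h2 : Λ ^ 9 = 64 ^ 9 * L ^ 9 := by rw [hΛ, mul_pow]
            rw [← h2]
            gcongr
          have hdd : dv t ^ A₁ ≤ dv t ^ (A₁ + B + 9) := pow_le_pow_right₀ hdt (by omega)
          calc 32 * H * (C₁ * (1 / θ) ^ A₁ * dv t ^ A₁ * (C₂ * L ^ B * √M / H))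
              = 32 * C₁ * (8 * L) ^ A₁ * C₂ * L ^ B * dv t ^ A₁ * √M := by
                rw [hθ1]; field_simp
            _ ≤ 32 * C₁ * (8 * L) ^ A₁ * C₂ * L ^ B * dv t ^ (A₁ + B + 9) *
                (√(t : ℝ) * √(N₁ * N₂) * (64 ^ 9 * L ^ 9)) := by gcongr
            _ = _ := by rw [hS', mul_pow, pow_add, pow_add]; ring
        have i2 : 32 * H * (F * ((3 * N₁) ^ 4 * (3 * N₂) ^ 4)) ≤ (32 * C₃ * 6561) * S := by
          have hexpH : H ≤ Real.exp L := by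
            calc H = Real.exp (Real.log H) := (Real.exp_log hH0).symm
              _ ≤ _ := Real.exp_le_exp.2 hHL
          have hexpN₁ : N₁ ≤ Real.exp L := by
            calc N₁ = Real.exp (Real.log N₁) := (Real.exp_log hN₁0).symm
              _ ≤ _ := Real.exp_le_exp.2 hN₁L
          have hexpN₂ : N₂ ≤ Real.exp L := by
            calc N₂ = Real.exp (Real.log N₂) := (Real.exp_log hN₂0).symm
              _ ≤ _ := Real.exp_le_exp.2 hN₂L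
          have hexpt : (t : ℝ) ≤ Real.exp L := by
            calc (t : ℝ) = Real.exp (Real.log t) := (Real.exp_log ht').symm
              _ ≤ _ := Real.exp_le_exp.2 htL
          have hS1 : 1 ≤ S := by
            rw [hS']
            have q1 : 1 ≤ L ^ (A₁ + B + 9) := one_le_pow₀ hL
            have q2 : 1 ≤ dv t ^ (A₁ + B + 9) := one_le_pow₀ hdt
            have q3 : 1 ≤ √(N₁ * N₂) := Real.one_le_sqrt.2 (by nlinarith)
            calc (1 : ℝ) = 1 * 1 * 1 * 1 := by norm_num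
              _ ≤ L ^ (A₁ + B + 9) * √(t : ℝ) * dv t ^ (A₁ + B + 9) * √(N₁ * N₂) := by gcongr
          have hprod : H * t ^ 3 * (N₁ ^ 6 * N₂ ^ 6) * Real.exp (-Λ / 4) ≤ 1 := by
            calc H * t ^ 3 * (N₁ ^ 6 * N₂ ^ 6) * Real.exp (-Λ / 4)
                ≤ Real.exp L * Real.exp L ^ 3 * (Real.exp L ^ 6 * Real.exp L ^ 6) *
                  Real.exp (-Λ / 4) := by gcongr
              _ = Real.exp (L + 3 * L + (6 * L + 6 * L) + -Λ / 4) := by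
                  rw [← Real.exp_nat_mul, ← Real.exp_nat_mul, ← Real.exp_add, ← Real.exp_add,
                    ← Real.exp_add, ← Real.exp_add]
                  norm_num
              _ = 1 := by
                  rw [hΛ, show L + 3 * L + (6 * L + 6 * L) + -(64 * L) / 4 = 0 by ring,
                    Real.exp_zero]
          calc 32 * H * (F * ((3 * N₁) ^ 4 * (3 * N₂) ^ 4))
              = (32 * C₃ * 6561) * (H * t ^ 3 * (N₁ ^ 6 * N₂ ^ 6) * Real.exp (-Λ / 4)) := by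
                rw [hF]; ring
            _ ≤ (32 * C₃ * 6561) * 1 := by gcongr
            _ ≤ (32 * C₃ * 6561) * S := by gcongr
        calc _ ≤ (32 * (C₁ * 8 ^ A₁) * C₂ * 64 ^ 9) * S + (32 * C₃ * 6561) * S := add_le_add i1 i2
          _ = Q * S := by rw [hQ]; ring
          _ = _ := by rw [hS']; ring

/-- **Module D**: the bilinear bound with one cut-off. -/
theorem pfTwL (h : StTwL2) : StTwL := by
  obtain ⟨C, hC, A, h⟩ := h
  refine ⟨C, hC, A, fun L H N t hL hH hHL hN hNL hg htL h₁ h₂ hh₁ hh₂ h₁0 h₂0 => ?_⟩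
  have := h L H N N t hL hH hHL hN hN hNL hNL hg htL h₁ h₂ hh₁ hh₂ h₁0 h₂0
  rwa [Real.sqrt_mul_self (by linarith)] at this

end Tw
end P004G
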